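import Mathlib

open scoped ContDiff
open MeasureTheory Set

namespace Vale.Agent.Lib.P205

/-- Derivative of the primitive. -/
lemma hasDerivAt_prim {f : ℝ → ℝ} (hf : Continuous f) (x : ℝ) :
    HasDerivAt (fun u => ∫ t in (0:ℝ)..u, f t) (f x) x :=
  intervalIntegral.integral_hasDerivAt_right (hf.intervalIntegrable _ _)
    (hf.stronglyMeasurableAtFilter _ _) hf.continuousAt

lemma deriv_prim {f : ℝ → ℝ} (hf : Continuous f) :
    deriv (fun u => ∫ t in (0:ℝ)..u, f t) = f :=
  funext fun x => (hasDerivAt_prim hf x).deriv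

lemma contDiff_prim {f : ℝ → ℝ} (hf : ContDiff ℝ ∞ f) :
    ContDiff ℝ ∞ (fun u => ∫ t in (0:ℝ)..u, f t) := by
  rw [contDiff_infty_iff_deriv]
  refine ⟨fun x => (hasDerivAt_prim hf.continuous x).differentiableAt, ?_⟩
  rw [deriv_prim hf.continuous]
  exact hf

lemma prim_add_period {f : ℝ → ℝ} (hf : Continuous f) {T : ℝ} (hT : Function.Periodic f T) (x : ℝ) :
    (∫ t in (0:ℝ)..(x + T), f t) = (∫ t in (0:ℝ)..x, f t) + ∫ t in (0:ℝ)..T, f t := by
  have h1 : (∫ t in (0:ℝ)..x, f t) + (∫ t in x..(x + T), f t) = ∫ t in (0:ℝ)..(x + T), f t :=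
    intervalIntegral.integral_add_adjacent_intervals (hf.intervalIntegrable _ _)
      (hf.intervalIntegrable _ _)
  have h2 : (∫ t in x..(x + T), f t) = ∫ t in (0:ℝ)..(0 + T), f t :=
    hT.intervalIntegral_add_eq x 0
  rw [← h1, h2, zero_add]

/-- Reparametrisation lemma: a smooth inverse of the primitive of a positive function. -/
lemma exists_reparam {h V : ℝ → ℝ} (hh : ContDiff ℝ ∞ h) (hV : ContDiff ℝ ∞ V)
    {c : ℝ} (hc : 0 < c) (hlow : ∀ x, c ≤ h x) :
    ∃ s : ℝ → ℝ, ContDiff ℝ ∞ s ∧ ∀ x, (∫ t in (0:ℝ)..(s x), h t) = ∫ t in (0:ℝ)..x, V t := by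
  set Φ : ℝ → ℝ := fun u => ∫ t in (0:ℝ)..u, h t with hΦ
  have hcont : Continuous h := hh.continuous
  have hd : ∀ x, HasDerivAt Φ (h x) x := hasDerivAt_prim hcont
  have hpos : ∀ x, 0 < h x := fun x => lt_of_lt_of_le hc (hlow x)
  have hmono : StrictMono Φ := by
    apply strictMono_of_deriv_pos
    intro x
    rw [(hd x).deriv]
    exact hpos x
  have hΦc : Continuous Φ := (contDiff_prim hh).continuous
  -- lower bound for positive arguments
  have hlin : ∀ u, 0 ≤ u → c * u ≤ Φ u := by
    intro u hu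
    have := intervalIntegral.integral_mono_on (μ := volume) (a := 0) (b := u) (f := fun _ => c) (g := h) hu
      (intervalIntegrable_const) (hcont.intervalIntegrable _ _) (fun x _ => hlow x)
    simpa [hΦ, mul_comm] using this
  have hlin' : ∀ u, 0 ≤ u → Φ (-u) ≤ - (c * u) := by
    intro u hu
    have hint : (∫ t in (0:ℝ)..(-u), h t) = - ∫ t in (-u)..(0:ℝ), h t :=
      intervalIntegral.integral_symm _ _
    have := intervalIntegral.integral_mono_on (μ := volume) (a := -u) (b := 0) (f := fun _ => c) (g := h)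
      (by linarith) (intervalIntegrable_const) (hcont.intervalIntegrable _ _) (fun x _ => hlow x)
    simp only [hΦ, hint]
    simp only [intervalIntegral.integral_const, sub_neg_eq_add, zero_add, smul_eq_mul] at this
    nlinarith
  have hsurj : Function.Surjective Φ := by
    intro y
    have h1 : Φ (|y| / c) ≥ y := by
      have := hlin (|y| / c) (by positivity)
      have e : c * (|y| / c) = |y| := by field_simp
      rw [e] at this
      exact le_trans (le_abs_self y) this
    have h2 : Φ (-(|y| / c)) ≤ y := by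
      have := hlin' (|y| / c) (by positivity)
      have e : c * (|y| / c) = |y| := by field_simp
      rw [e] at this
      exact le_trans this (neg_abs_le y)
    exact mem_range_of_exists_le_of_exists_ge hΦc ⟨_, h2⟩ ⟨_, h1⟩
  let f : ℝ ≃ₜ ℝ := (StrictMono.orderIsoOfSurjective Φ hmono hsurj).toHomeomorph
  have hfcoe : (f : ℝ → ℝ) = Φ := rfl
  have hsymm : ContDiff ℝ ∞ (f.symm : ℝ → ℝ) := by
    apply Homeomorph.contDiff_symm_deriv (f' := h) f
    · intro x; exact (hpos x).ne'
    · intro x; rw [hfcoe]; exact hd x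
    · rw [hfcoe]; exact contDiff_prim hh
  refine ⟨fun x => f.symm (∫ t in (0:ℝ)..x, V t), hsymm.comp (contDiff_prim hV), ?_⟩
  intro x
  have : Φ (f.symm (∫ t in (0:ℝ)..x, V t)) = ∫ t in (0:ℝ)..x, V t := by
    have := f.apply_symm_apply (∫ t in (0:ℝ)..x, V t)
    rwa [hfcoe] at this
  exact this

end Vale.Agent.Lib.P205
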