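import Mathlib
import Vale.Agent.Lib.P205.Prim

open scoped ContDiff
open MeasureTheory Set

namespace Vale.Agent.Lib.P205

/-- The latitude profile. -/
noncomputable def zfun (z0 μ : ℝ) (N : ℕ) (t : ℝ) : ℝ := z0 + μ * Real.cos (N * t)

/-- Its derivative. -/
noncomputable def dzfun (μ : ℝ) (N : ℕ) (t : ℝ) : ℝ := -(μ * N * Real.sin (N * t))

/-- Horizontal speed of the loop. -/
noncomputable def hfun (z0 μ : ℝ) (N : ℕ) (t : ℝ) : ℝ :=
  (1 / 2) * √((dzfun μ N t) ^ 2 / (1 - (zfun z0 μ N t) ^ 2) + (1 - (zfun z0 μ N t) ^ 2))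

lemma hasDerivAt_zfun (z0 μ : ℝ) (N : ℕ) (t : ℝ) :
    HasDerivAt (zfun z0 μ N) (dzfun μ N t) t := by
  unfold zfun dzfun
  have h1 : HasDerivAt (fun t : ℝ => (N : ℝ) * t) (N : ℝ) t := by
    simpa using (hasDerivAt_id t).const_mul (N : ℝ)
  have h2 : HasDerivAt (fun t : ℝ => Real.cos ((N : ℝ) * t)) (-Real.sin ((N : ℝ) * t) * (N : ℝ)) t :=
    (Real.hasDerivAt_cos ((N : ℝ) * t)).comp t h1
  have h3 := (h2.const_mul μ).const_add z0
  exact h3.congr_deriv (by ring)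

lemma contDiff_zfun (z0 μ : ℝ) (N : ℕ) : ContDiff ℝ ∞ (zfun z0 μ N) := by
  unfold zfun
  exact contDiff_const.add (contDiff_const.mul (Real.contDiff_cos.comp (contDiff_const.mul contDiff_id)))

lemma contDiff_dzfun (μ : ℝ) (N : ℕ) : ContDiff ℝ ∞ (dzfun μ N) := by
  unfold dzfun
  exact (contDiff_const.mul (Real.contDiff_sin.comp (contDiff_const.mul contDiff_id))).neg

lemma zfun_periodic (z0 μ : ℝ) (N : ℕ) : Function.Periodic (zfun z0 μ N) (2 * Real.pi) := by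
  intro t
  unfold zfun
  have : (N : ℝ) * (t + 2 * Real.pi) = (N : ℝ) * t + (N : ℕ) * (2 * Real.pi) := by ring
  rw [this, Real.cos_add_nat_mul_two_pi]

lemma dzfun_periodic (μ : ℝ) (N : ℕ) : Function.Periodic (dzfun μ N) (2 * Real.pi) := by
  intro t
  unfold dzfun
  have : (N : ℝ) * (t + 2 * Real.pi) = (N : ℝ) * t + (N : ℕ) * (2 * Real.pi) := by ring
  rw [this, Real.sin_add_nat_mul_two_pi]

lemma hfun_periodic (z0 μ : ℝ) (N : ℕ) : Function.Periodic (hfun z0 μ N) (2 * Real.pi) := by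
  intro t
  unfold hfun
  rw [zfun_periodic z0 μ N t, dzfun_periodic μ N t]

/-- Bound for the profile. -/
lemma zfun_sq_le {z0 μ : ℝ} {N : ℕ} (_h1 : -1 < z0) (h2 : z0 ≤ 0) (h3 : 0 ≤ μ)
    (h4 : μ ≤ (1 + z0) / 2) (t : ℝ) :
    (zfun z0 μ N t) ^ 2 ≤ ((1 - z0) / 2) ^ 2 := by
  unfold zfun
  have hc1 := Real.cos_le_one ((N : ℝ) * t)
  have hc2 := Real.neg_one_le_cos ((N : ℝ) * t)
  have l1 : z0 + μ * Real.cos ((N : ℝ) * t) ≤ (1 - z0) / 2 := by nlinarith
  have l2 : -((1 - z0) / 2) ≤ z0 + μ * Real.cos ((N : ℝ) * t) := by nlinarith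
  exact sq_le_sq' l2 l1

lemma beta_lt {z0 : ℝ} (h1 : -1 < z0) (h2 : z0 ≤ 0) : ((1 - z0) / 2) ^ 2 < 1 := by
  nlinarith

lemma zfun_one_sub_pos {z0 μ : ℝ} {N : ℕ} (h1 : -1 < z0) (h2 : z0 ≤ 0) (h3 : 0 ≤ μ)
    (h4 : μ ≤ (1 + z0) / 2) (t : ℝ) : 0 < 1 - (zfun z0 μ N t) ^ 2 := by
  have := zfun_sq_le (N := N) h1 h2 h3 h4 t
  have := beta_lt h1 h2
  linarith

lemma hfun_sq {z0 μ : ℝ} {N : ℕ} (h1 : -1 < z0) (h2 : z0 ≤ 0) (h3 : 0 ≤ μ)
    (h4 : μ ≤ (1 + z0) / 2) (t : ℝ) :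
    (hfun z0 μ N t) ^ 2 =
      (1 / 4) * ((dzfun μ N t) ^ 2 / (1 - (zfun z0 μ N t) ^ 2) + (1 - (zfun z0 μ N t) ^ 2)) := by
  unfold hfun
  have hp := zfun_one_sub_pos (N := N) h1 h2 h3 h4 t
  have hq : 0 ≤ (dzfun μ N t) ^ 2 / (1 - (zfun z0 μ N t) ^ 2) + (1 - (zfun z0 μ N t) ^ 2) := by
    positivity
  rw [mul_pow, Real.sq_sqrt hq]
  norm_num

/-- Uniform lower bound for the speed. -/
lemma hfun_lower {z0 μ : ℝ} {N : ℕ} (h1 : -1 < z0) (h2 : z0 ≤ 0) (h3 : 0 ≤ μ)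
    (h4 : μ ≤ (1 + z0) / 2) (t : ℝ) :
    (1 / 2) * √(1 - ((1 - z0) / 2) ^ 2) ≤ hfun z0 μ N t := by
  unfold hfun
  have hp := zfun_one_sub_pos (N := N) h1 h2 h3 h4 t
  have hz := zfun_sq_le (N := N) h1 h2 h3 h4 t
  apply mul_le_mul_of_nonneg_left _ (by norm_num)
  apply Real.sqrt_le_sqrt
  have : 0 ≤ (dzfun μ N t) ^ 2 / (1 - (zfun z0 μ N t) ^ 2) := by positivity
  linarith

lemma lower_pos {z0 : ℝ} (h1 : -1 < z0) (h2 : z0 ≤ 0) : 0 < (1 / 2) * √(1 - ((1 - z0) / 2) ^ 2) := by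
  have := beta_lt h1 h2
  have : 0 < √(1 - ((1 - z0) / 2) ^ 2) := Real.sqrt_pos.mpr (by linarith)
  positivity

lemma contDiff_hfun {z0 μ : ℝ} {N : ℕ} (h1 : -1 < z0) (h2 : z0 ≤ 0) (h3 : 0 ≤ μ)
    (h4 : μ ≤ (1 + z0) / 2) : ContDiff ℝ ∞ (hfun z0 μ N) := by
  unfold hfun
  have hz := contDiff_zfun z0 μ N
  have hdz := contDiff_dzfun μ N
  have hp := zfun_one_sub_pos (N := N) h1 h2 h3 h4
  apply contDiff_const.mul
  apply ContDiff.sqrt
  · apply ContDiff.add
    · exact (hdz.pow 2).div (contDiff_const.sub (hz.pow 2)) (fun t => (hp t).ne')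
    · exact contDiff_const.sub (hz.pow 2)
  · intro t
    have := hp t
    have : 0 ≤ (dzfun μ N t) ^ 2 / (1 - (zfun z0 μ N t) ^ 2) := by positivity
    linarith [hp t]

lemma integral_sin_sq_mul (N : ℕ) (hN : 0 < N) :
    (∫ t in (0:ℝ)..(2 * Real.pi), Real.sin ((N : ℝ) * t) ^ 2) = Real.pi := by
  have hN' : (N : ℝ) ≠ 0 := by positivity
  have : (∫ t in (0:ℝ)..(2 * Real.pi), Real.sin ((N : ℝ) * t) ^ 2)
      = (N : ℝ)⁻¹ • ∫ x in ((N : ℝ) * 0)..((N : ℝ) * (2 * Real.pi)), Real.sin x ^ 2 :=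
    intervalIntegral.integral_comp_mul_left (a := 0) (b := 2 * Real.pi)
      (fun x => Real.sin x ^ 2) hN'
  rw [this, integral_sin_sq]
  have e : (N : ℝ) * (2 * Real.pi) = (2 * (N : ℕ)) * Real.pi := by ring
  have hs : Real.sin ((N : ℝ) * (2 * Real.pi)) = 0 := by
    rw [e]
    have := Real.sin_nat_mul_pi (2 * N)
    push_cast at this
    exact this
  rw [hs]
  simp
  field_simp

lemma integral_cos_mul (N : ℕ) (hN : 0 < N) :
    (∫ t in (0:ℝ)..(2 * Real.pi), Real.cos ((N : ℝ) * t)) = 0 := by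
  have hN' : (N : ℝ) ≠ 0 := by positivity
  have : (∫ t in (0:ℝ)..(2 * Real.pi), Real.cos ((N : ℝ) * t))
      = (N : ℝ)⁻¹ • ∫ x in ((N : ℝ) * 0)..((N : ℝ) * (2 * Real.pi)), Real.cos x :=
    intervalIntegral.integral_comp_mul_left (a := 0) (b := 2 * Real.pi)
      (fun x => Real.cos x) hN'
  rw [this, integral_cos]
  have e : (N : ℝ) * (2 * Real.pi) = (2 * (N : ℕ)) * Real.pi := by ring
  have hs : Real.sin ((N : ℝ) * (2 * Real.pi)) = 0 := by
    rw [e]
    have := Real.sin_nat_mul_pi (2 * N)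
    push_cast at this
    exact this
  rw [hs]
  simp

/-- Integral of the profile. -/
lemma integral_half_one_add_z (z0 μ : ℝ) (N : ℕ) (hN : 0 < N) :
    (∫ t in (0:ℝ)..(2 * Real.pi), (1 + zfun z0 μ N t) / 2) = Real.pi * (1 + z0) := by
  unfold zfun
  have : (fun t : ℝ => (1 + (z0 + μ * Real.cos ((N : ℝ) * t))) / 2)
      = fun t => (1 + z0) / 2 + (μ / 2) * Real.cos ((N : ℝ) * t) := by
    funext t; ring
  rw [this, intervalIntegral.integral_add]
  · rw [intervalIntegral.integral_const, intervalIntegral.integral_const_mul, integral_cos_mul N hN]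
    simp
    ring
  · exact intervalIntegrable_const
  · apply Continuous.intervalIntegrable
    fun_prop

/-- Choice of amplitude and frequency realising a prescribed length. -/
lemma exists_mu_N {z0 : ℝ} (h1 : -1 < z0) (h2 : z0 ≤ 0) {L : ℝ} (hL : Real.pi ≤ L) :
    ∃ (μ : ℝ) (N : ℕ), 0 ≤ μ ∧ μ ≤ (1 + z0) / 2 ∧ 0 < N ∧
      (∫ t in (0:ℝ)..(2 * Real.pi), hfun z0 μ N t) = L := by
  set μs : ℝ := (1 + z0) / 2 with hμs
  have hμs0 : 0 < μs := by rw [hμs]; linarith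
  obtain ⟨N, hN⟩ := exists_nat_gt (2 * L / (Real.pi * μs) + 1)
  have hpi := Real.pi_pos
  have hLpos : 0 < L := lt_of_lt_of_le hpi hL
  have hN1 : (1 : ℝ) < N := by
    have : 0 < 2 * L / (Real.pi * μs) := by positivity
    linarith
  have hNpos : 0 < N := by
    have : (0:ℝ) < N := by linarith
    exact_mod_cast this
  -- continuity of the length in the amplitude
  set X := Icc (0:ℝ) μs with hX
  let f : X → ℝ → ℝ := fun μ t => hfun z0 μ N t
  have hfc : Continuous (Function.uncurry f) := by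
    have hzc : Continuous fun q : X × ℝ => zfun z0 (q.1 : ℝ) N q.2 := by
      unfold zfun
      have : Continuous fun q : X × ℝ => ((q.1 : ℝ)) := continuous_subtype_val.comp continuous_fst
      fun_prop
    have hdzc : Continuous fun q : X × ℝ => dzfun (q.1 : ℝ) N q.2 := by
      unfold dzfun
      have : Continuous fun q : X × ℝ => ((q.1 : ℝ)) := continuous_subtype_val.comp continuous_fst
      fun_prop
    have hne : ∀ q : X × ℝ, 1 - (zfun z0 (q.1 : ℝ) N q.2) ^ 2 ≠ 0 := by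
      intro q
      exact (zfun_one_sub_pos h1 h2 q.1.2.1 q.1.2.2 q.2).ne'
    have : Function.uncurry f = fun q : X × ℝ => (1 / 2) * √((dzfun (q.1 : ℝ) N q.2) ^ 2 /
        (1 - (zfun z0 (q.1 : ℝ) N q.2) ^ 2) + (1 - (zfun z0 (q.1 : ℝ) N q.2) ^ 2)) := by
      funext q
      simp [f, Function.uncurry, hfun]
    rw [this]
    apply Continuous.mul continuous_const
    apply Continuous.sqrt
    apply Continuous.add
    · exact (hdzc.pow 2).div (continuous_const.sub (hzc.pow 2)) hne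
    · exact continuous_const.sub (hzc.pow 2)
  have hLc : Continuous fun μ : X => ∫ t in (0:ℝ)..(2 * Real.pi), f μ t :=
    intervalIntegral.continuous_parametric_intervalIntegral_of_continuous (a₀ := 0) hfc
      continuous_const
  have hLcOn : ContinuousOn (fun μ : ℝ => ∫ t in (0:ℝ)..(2 * Real.pi), hfun z0 μ N t) (Icc 0 μs) := by
    rw [continuousOn_iff_continuous_domRestrict]
    exact hLc
  -- value at zero
  have hLow : (∫ t in (0:ℝ)..(2 * Real.pi), hfun z0 0 N t) ≤ L := by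
    have hcst : ∀ t : ℝ, hfun z0 0 N t = (1 / 2) * √(1 - z0 ^ 2) := by
      intro t
      unfold hfun zfun dzfun
      simp
    simp only [hcst, intervalIntegral.integral_const, sub_zero, smul_eq_mul]
    have hsq : √(1 - z0 ^ 2) ≤ 1 := by
      exact Real.sqrt_le_one.mpr (by nlinarith [sq_nonneg z0])
    nlinarith
  -- value at the top amplitude
  have hHigh : L ≤ ∫ t in (0:ℝ)..(2 * Real.pi), hfun z0 μs N t := by
    have hptw : ∀ t : ℝ, (μs * N / 2) * Real.sin ((N : ℝ) * t) ^ 2 ≤ hfun z0 μs N t := by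
      intro t
      unfold hfun
      have hp := zfun_one_sub_pos (N := N) h1 h2 hμs0.le (le_refl _) t
      have hle : 1 - (zfun z0 μs N t) ^ 2 ≤ 1 := by nlinarith [sq_nonneg (zfun z0 μs N t)]
      have hsq : (dzfun μs N t) ^ 2 ≤ (dzfun μs N t) ^ 2 / (1 - (zfun z0 μs N t) ^ 2) + (1 - (zfun z0 μs N t) ^ 2) := by
        have : (dzfun μs N t) ^ 2 ≤ (dzfun μs N t) ^ 2 / (1 - (zfun z0 μs N t) ^ 2) := by
          rw [le_div_iff₀ hp]
          nlinarith [sq_nonneg (dzfun μs N t)]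
        linarith
      have habs : |dzfun μs N t| ≤ √((dzfun μs N t) ^ 2 / (1 - (zfun z0 μs N t) ^ 2) + (1 - (zfun z0 μs N t) ^ 2)) := by
        rw [← Real.sqrt_sq_eq_abs]
        exact Real.sqrt_le_sqrt hsq
      have hd : |dzfun μs N t| = μs * N * |Real.sin ((N : ℝ) * t)| := by
        unfold dzfun
        rw [abs_neg, abs_mul, abs_mul, abs_of_pos hμs0, abs_of_nonneg (Nat.cast_nonneg N)]
      have hsin : Real.sin ((N : ℝ) * t) ^ 2 ≤ |Real.sin ((N : ℝ) * t)| := by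
        have h0 := abs_nonneg (Real.sin ((N : ℝ) * t))
        have h1' := Real.abs_sin_le_one ((N : ℝ) * t)
        rw [← sq_abs]
        nlinarith
      have hNn : 0 ≤ μs * N := by positivity
      have := mul_le_mul_of_nonneg_left hsin hNn
      nlinarith
    have hint := intervalIntegral.integral_mono_on (μ := volume) (a := 0) (b := 2 * Real.pi)
      (f := fun t => (μs * N / 2) * Real.sin ((N : ℝ) * t) ^ 2) (g := hfun z0 μs N)
      (by positivity) (by apply Continuous.intervalIntegrable; fun_prop)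
      ((contDiff_hfun h1 h2 hμs0.le (le_refl _)).continuous.intervalIntegrable _ _)
      (fun t _ => hptw t)
    rw [intervalIntegral.integral_const_mul, integral_sin_sq_mul N hNpos] at hint
    have hNL : 2 * L / (Real.pi * μs) < N := by linarith
    have : L ≤ μs * N / 2 * Real.pi := by
      rw [div_lt_iff₀ (by positivity)] at hNL
      nlinarith
    linarith
  obtain ⟨μ, hμ, hμL⟩ := intermediate_value_Icc hμs0.le hLcOn ⟨hLow, hHigh⟩
  exact ⟨μ, N, hμ.1, hμ.2, hNpos, hμL⟩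

end Vale.Agent.Lib.P205
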