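import Mathlib
import Vale.Agent.Lib.P205.Curve

open scoped ContDiff
open MeasureTheory Set

namespace Vale.Agent.Lib.P205

/-- First coordinate amplitude of the loop in the three-sphere. -/
noncomputable def Afun (z0 μ : ℝ) (N : ℕ) (t : ℝ) : ℝ := √((1 + zfun z0 μ N t) / 2)

/-- Second coordinate amplitude of the loop in the three-sphere. -/
noncomputable def Bfun (z0 μ : ℝ) (N : ℕ) (t : ℝ) : ℝ := √((1 - zfun z0 μ N t) / 2)

section
variable {z0 μ : ℝ} {N : ℕ} (h1 : -1 < z0) (h2 : z0 ≤ 0) (h3 : 0 ≤ μ) (h4 : μ ≤ (1 + z0) / 2)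
include h1 h2 h3 h4

lemma z_lt (t : ℝ) : -1 < zfun z0 μ N t ∧ zfun z0 μ N t < 1 := by
  have := zfun_one_sub_pos (N := N) h1 h2 h3 h4 t
  have h : (zfun z0 μ N t) ^ 2 < 1 := by linarith
  exact abs_lt.mp (sq_lt_one_iff_abs_lt_one _ |>.mp h)

lemma Afun_pos (t : ℝ) : 0 < Afun z0 μ N t :=
  Real.sqrt_pos.mpr (by have := (z_lt (N := N) h1 h2 h3 h4 t).1; linarith)

lemma Bfun_pos (t : ℝ) : 0 < Bfun z0 μ N t :=
  Real.sqrt_pos.mpr (by have := (z_lt (N := N) h1 h2 h3 h4 t).2; linarith)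

lemma Afun_sq (t : ℝ) : (Afun z0 μ N t) ^ 2 = (1 + zfun z0 μ N t) / 2 :=
  Real.sq_sqrt (by have := (z_lt (N := N) h1 h2 h3 h4 t).1; linarith)

lemma Bfun_sq (t : ℝ) : (Bfun z0 μ N t) ^ 2 = (1 - zfun z0 μ N t) / 2 :=
  Real.sq_sqrt (by have := (z_lt (N := N) h1 h2 h3 h4 t).2; linarith)

lemma contDiff_Afun : ContDiff ℝ ∞ (Afun z0 μ N) := by
  unfold Afun
  apply ContDiff.sqrt
  · exact (contDiff_const.add (contDiff_zfun z0 μ N)).div_const 2
  · intro t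
    have := (z_lt (N := N) h1 h2 h3 h4 t).1
    have : 0 < (1 + zfun z0 μ N t) / 2 := by linarith
    exact this.ne'

lemma contDiff_Bfun : ContDiff ℝ ∞ (Bfun z0 μ N) := by
  unfold Bfun
  apply ContDiff.sqrt
  · exact (contDiff_const.sub (contDiff_zfun z0 μ N)).div_const 2
  · intro t
    have := (z_lt (N := N) h1 h2 h3 h4 t).2
    have : 0 < (1 - zfun z0 μ N t) / 2 := by linarith
    exact this.ne'

lemma hasDerivAt_Afun (t : ℝ) :
    HasDerivAt (Afun z0 μ N) (dzfun μ N t / (4 * Afun z0 μ N t)) t := by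
  have hp : (1 + zfun z0 μ N t) / 2 ≠ 0 := by
    have := (z_lt (N := N) h1 h2 h3 h4 t).1
    have : 0 < (1 + zfun z0 μ N t) / 2 := by linarith
    exact this.ne'
  have hd : HasDerivAt (fun u => (1 + zfun z0 μ N u) / 2) (dzfun μ N t / 2) t :=
    ((hasDerivAt_zfun z0 μ N t).const_add 1).div_const 2
  have := hd.sqrt hp
  refine this.congr_deriv ?_
  have hA : √((1 + zfun z0 μ N t) / 2) = Afun z0 μ N t := rfl
  rw [hA]
  have hA0 := (Afun_pos (N := N) h1 h2 h3 h4 t).ne'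
  field_simp
  ring

lemma hasDerivAt_Bfun (t : ℝ) :
    HasDerivAt (Bfun z0 μ N) (-(dzfun μ N t / (4 * Bfun z0 μ N t))) t := by
  have hp : (1 - zfun z0 μ N t) / 2 ≠ 0 := by
    have := (z_lt (N := N) h1 h2 h3 h4 t).2
    have : 0 < (1 - zfun z0 μ N t) / 2 := by linarith
    exact this.ne'
  have hd : HasDerivAt (fun u => (1 - zfun z0 μ N u) / 2) (-dzfun μ N t / 2) t := by
    have := ((hasDerivAt_zfun z0 μ N t).const_sub 1).div_const 2
    exact this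
  have := hd.sqrt hp
  refine this.congr_deriv ?_
  have hB : √((1 - zfun z0 μ N t) / 2) = Bfun z0 μ N t := rfl
  rw [hB]
  have hB0 := (Bfun_pos (N := N) h1 h2 h3 h4 t).ne'
  field_simp
  ring

/-- Speed identity. -/
lemma hfun_sq_eq (t : ℝ) :
    (hfun z0 μ N t) ^ 2 =
      (dzfun μ N t / (4 * Afun z0 μ N t)) ^ 2 + (-(dzfun μ N t / (4 * Bfun z0 μ N t))) ^ 2
        + (Afun z0 μ N t) ^ 2 * (Bfun z0 μ N t) ^ 2 := by
  rw [hfun_sq h1 h2 h3 h4]
  have hA0 := (Afun_pos (N := N) h1 h2 h3 h4 t).ne'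
  have hB0 := (Bfun_pos (N := N) h1 h2 h3 h4 t).ne'
  have hA2 := Afun_sq (N := N) h1 h2 h3 h4 t
  have hB2 := Bfun_sq (N := N) h1 h2 h3 h4 t
  have hz : 1 - (zfun z0 μ N t) ^ 2 = 4 * ((Afun z0 μ N t) ^ 2 * (Bfun z0 μ N t) ^ 2) := by
    rw [hA2, hB2]; ring
  have hsum : (Afun z0 μ N t) ^ 2 + (Bfun z0 μ N t) ^ 2 = 1 := by
    rw [hA2, hB2]; ring
  rw [hz]
  generalize Afun z0 μ N t = a at *
  generalize Bfun z0 μ N t = b at *
  generalize dzfun μ N t = d at *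
  have : (-(d / (4 * b))) ^ 2 = (d / (4 * b)) ^ 2 := by ring
  rw [this]
  have e1 : (d / (4 * a)) ^ 2 + (d / (4 * b)) ^ 2 = d ^ 2 * (a ^ 2 + b ^ 2) / (16 * a ^ 2 * b ^ 2) := by
    field_simp
    ring
  rw [e1, hsum]
  field_simp
  ring

end

lemma Afun_periodic (z0 μ : ℝ) (N : ℕ) : Function.Periodic (Afun z0 μ N) (2 * Real.pi) := by
  intro t
  unfold Afun
  rw [zfun_periodic z0 μ N t]

lemma Bfun_periodic (z0 μ : ℝ) (N : ℕ) : Function.Periodic (Bfun z0 μ N) (2 * Real.pi) := by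
  intro t
  unfold Bfun
  rw [zfun_periodic z0 μ N t]

/-- The algebraic identity behind the first fundamental form. -/
lemma first_form_identity (r r' As Bs As' Bs' s' ψ' w hh V : ℝ)
    (hAB : As ^ 2 + Bs ^ 2 = 1) (hAB' : As * As' + Bs * Bs' = 0)
    (hψ : ψ' = w - As ^ 2 * s') (hh2 : hh ^ 2 = As' ^ 2 + Bs' ^ 2 + As ^ 2 * Bs ^ 2)
    (hV : s' * hh = V) :
    (r' * As + r * (As' * s')) ^ 2 + (r * As) ^ 2 * (ψ' + s') ^ 2
      + (r' * Bs + r * (Bs' * s')) ^ 2 + (r * Bs) ^ 2 * ψ' ^ 2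
      = r' ^ 2 + r ^ 2 * w ^ 2 + r ^ 2 * V ^ 2 := by
  subst hψ
  subst hV
  have : (s' * hh) ^ 2 = s' ^ 2 * (As' ^ 2 + Bs' ^ 2 + As ^ 2 * Bs ^ 2) := by
    rw [mul_pow, hh2]
  rw [this]
  linear_combination (r' ^ 2 + r ^ 2 * ((w - As ^ 2 * s') ^ 2 - s' ^ 2 * As ^ 2)) * hAB
    + 2 * r * r' * s' * hAB'

lemma deriv_periodic {f : ℝ → ℝ} {T : ℝ} (hf : Function.Periodic f T) :
    Function.Periodic (deriv f) T := by
  intro x
  have : (fun y => f (y + T)) = f := funext hf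
  have h := deriv_comp_add_const f T x
  rw [this] at h
  exact h.symm

/-- Bound used to choose the frequency. -/
lemma exists_frequency {E G H : ℝ → ℝ}
    (hE : Continuous E) (hG : Continuous G) (hH : ContDiff ℝ ∞ H)
    (pE : Function.Periodic E 1) (pG : Function.Periodic G 1) (pH : Function.Periodic H 1)
    (hQ : ∀ x, 0 < E x * H x - G x ^ 2) :
    ∃ k : ℕ, 0 < k ∧ ∀ x, 49 * H x ^ 2 + (deriv H x) ^ 2 / 4 ≤
      (2 * Real.pi * k) ^ 2 * (E x * H x - G x ^ 2) := by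
  have hdH : Continuous (deriv H) := (contDiff_infty_iff_deriv.mp hH).2.continuous
  have hHc := hH.continuous
  let R : ℝ → ℝ := fun x => (49 * H x ^ 2 + (deriv H x) ^ 2 / 4) / (E x * H x - G x ^ 2)
  have hRc : Continuous R := by
    apply Continuous.div
    · fun_prop
    · fun_prop
    · intro x; exact (hQ x).ne'
  have hRp : Function.Periodic R 1 := by
    intro x
    simp only [R]
    rw [pE x, pG x, pH x, deriv_periodic pH x]
  obtain ⟨M, hM⟩ := (hRp.compact_of_continuous one_ne_zero hRc).bddAbove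
  obtain ⟨k0, hk0⟩ := exists_nat_ge M
  refine ⟨k0 + 1, Nat.succ_pos _, fun x => ?_⟩
  have hRx : R x ≤ M := hM ⟨x, rfl⟩
  have h5 : R x ≤ (2 * Real.pi * ((k0 + 1 : ℕ) : ℝ)) ^ 2 := by
    have hpi := Real.pi_gt_three
    have hk : (k0 : ℝ) + 1 ≥ 1 := by
      have : (0:ℝ) ≤ k0 := Nat.cast_nonneg k0
      linarith
    push_cast
    have : ((k0 : ℝ) + 1) ≤ (2 * Real.pi * ((k0 : ℝ) + 1)) ^ 2 := by
      have hc : (1:ℝ) ≤ (2 * Real.pi) ^ 2 := by nlinarith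
      have hm : (k0:ℝ) + 1 ≤ ((k0:ℝ) + 1) ^ 2 := by nlinarith
      have hm2 : 0 ≤ ((k0:ℝ) + 1) ^ 2 := by positivity
      have e : (2 * Real.pi * ((k0 : ℝ) + 1)) ^ 2 = (2 * Real.pi) ^ 2 * ((k0:ℝ) + 1) ^ 2 := by ring
      rw [e]
      nlinarith
    linarith
  have := (div_le_iff₀ (hQ x)).mp h5
  exact this

end Vale.Agent.Lib.P205
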