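import Mathlib
import Vale.Agent.Lib.P205.Profile

open scoped ContDiff
open MeasureTheory Set

namespace Vale.Agent.Lib.P205

theorem exists_profile {E G H : ℝ → ℝ}
    (hE : ContDiff ℝ ∞ E) (hG : ContDiff ℝ ∞ G) (hH : ContDiff ℝ ∞ H)
    (pE : Function.Periodic E 1) (pG : Function.Periodic G 1) (pH : Function.Periodic H 1)
    (hEpos : ∀ x, 0 < E x) (hQ : ∀ x, 0 < E x * H x - G x ^ 2) :
    ∃ (k : ℕ) (a b p q : ℝ → ℝ) (n₁ n₂ : ℤ), 0 < k ∧
      ContDiff ℝ ∞ a ∧ ContDiff ℝ ∞ b ∧ ContDiff ℝ ∞ p ∧ ContDiff ℝ ∞ q ∧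
      (∀ x, a (x + 1) = a x) ∧ (∀ x, b (x + 1) = b x) ∧
      (∀ x, p (x + 1) = p x + n₁ * (2 * Real.pi)) ∧ (∀ x, q (x + 1) = q x + n₂ * (2 * Real.pi)) ∧
      ∀ x, (deriv a x) ^ 2 + (a x) ^ 2 * (deriv p x) ^ 2 + (deriv b x) ^ 2
              + (b x) ^ 2 * (deriv q x) ^ 2 = E x ∧
           (2 * Real.pi * k) * ((a x) ^ 2 * deriv p x + (b x) ^ 2 * deriv q x) = G x ∧
           (2 * Real.pi * k) ^ 2 * ((a x) ^ 2 + (b x) ^ 2) = H x := by
  have hpi := Real.pi_pos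
  have Hpos : ∀ x, 0 < H x := by
    intro x
    have h1 := hQ x
    have h2 := hEpos x
    have : 0 < E x * H x := by nlinarith [sq_nonneg (G x)]
    exact (pos_iff_pos_of_mul_pos this).mp h2
  obtain ⟨k, hk, hkb⟩ := exists_frequency hE.continuous hG.continuous hH pE pG pH hQ
  obtain ⟨K, hKdef⟩ : ∃ K : ℝ, K = 2 * Real.pi * k := ⟨_, rfl⟩
  rw [← hKdef] at hkb
  have hKpos : 0 < K := by
    rw [hKdef]
    have : (0:ℝ) < k := by exact_mod_cast hk
    positivity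
  have hdH : ContDiff ℝ ∞ (deriv H) := (contDiff_infty_iff_deriv.mp hH).2
  have pdH : Function.Periodic (deriv H) 1 := deriv_periodic pH
  -- the speed V
  obtain ⟨D, hDdef⟩ : ∃ D : ℝ → ℝ, D = fun x => K ^ 2 * (E x * H x - G x ^ 2) - (deriv H x) ^ 2 / 4 :=
    ⟨_, rfl⟩
  have hDlow : ∀ x, 49 * H x ^ 2 ≤ D x := by
    intro x
    rw [hDdef]
    have := hkb x
    simp only
    linarith
  have hDpos : ∀ x, 0 < D x := by
    intro x
    have := hDlow x
    have := Hpos x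
    nlinarith [pow_pos (Hpos x) 2]
  have hDs : ContDiff ℝ ∞ D := by
    rw [hDdef]
    exact ((contDiff_const.mul ((hE.mul hH).sub (hG.pow 2)))).sub ((hdH.pow 2).div_const 4)
  have pD : Function.Periodic D 1 := by
    intro x
    rw [hDdef]
    simp only
    rw [pE x, pG x, pH x, pdH x]
  obtain ⟨V, hVdef⟩ : ∃ V : ℝ → ℝ, V = fun x => √(D x) / H x := ⟨_, rfl⟩
  have hVs : ContDiff ℝ ∞ V := by
    rw [hVdef]
    exact (hDs.sqrt (fun x => (hDpos x).ne')).div hH (fun x => (Hpos x).ne')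
  have pV : Function.Periodic V 1 := by
    intro x
    rw [hVdef]
    simp only
    rw [pD x, pH x]
  have hVlow : ∀ x, 7 ≤ V x := by
    intro x
    rw [hVdef]
    simp only
    rw [le_div_iff₀ (Hpos x)]
    apply Real.le_sqrt_of_sq_le
    have := hDlow x
    nlinarith
  have hVsq : ∀ x, (V x) ^ 2 = D x / (H x) ^ 2 := by
    intro x
    rw [hVdef]
    simp only
    rw [div_pow, Real.sq_sqrt (hDpos x).le]
  -- total length
  obtain ⟨l, hldef⟩ : ∃ l : ℝ, l = ∫ t in (0:ℝ)..1, V t := ⟨_, rfl⟩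
  have hl7 : 7 ≤ l := by
    have := intervalIntegral.integral_mono_on (μ := volume) (a := 0) (b := 1)
      (f := fun _ => (7:ℝ)) (g := V) (by norm_num) intervalIntegrable_const
      (hVs.continuous.intervalIntegrable _ _) (fun x _ => hVlow x)
    simpa [hldef] using this
  -- the function w
  obtain ⟨w, hwdef⟩ : ∃ w : ℝ → ℝ, w = fun x => K * G x / H x := ⟨_, rfl⟩
  have hws : ContDiff ℝ ∞ w := by
    rw [hwdef]
    exact (contDiff_const.mul hG).div hH (fun x => (Hpos x).ne')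
  have pw : Function.Periodic w 1 := by
    intro x
    rw [hwdef]
    simp only
    rw [pG x, pH x]
  obtain ⟨W1, hW1⟩ : ∃ W1 : ℝ, W1 = ∫ t in (0:ℝ)..1, w t := ⟨_, rfl⟩
  -- the latitude
  obtain ⟨y, hy⟩ : ∃ y : ℝ, y = -W1 / (2 * Real.pi) := ⟨_, rfl⟩
  obtain ⟨ρ, hρ⟩ : ∃ ρ : ℝ, ρ = 1 - Int.fract y := ⟨_, rfl⟩
  have hρ0 : 0 < ρ := by rw [hρ]; have := Int.fract_lt_one y; linarith
  have hρ1 : ρ ≤ 1 := by rw [hρ]; have := Int.fract_nonneg y; linarith
  obtain ⟨z0, hz0⟩ : ∃ z0 : ℝ, z0 = ρ - 1 := ⟨_, rfl⟩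
  have h1 : -1 < z0 := by rw [hz0]; linarith
  have h2 : z0 ≤ 0 := by rw [hz0]; linarith
  have hpiL : Real.pi ≤ l / 2 := by
    have := Real.pi_lt_d2
    linarith
  obtain ⟨μ, N, h3, h4, hN, hL⟩ := exists_mu_N h1 h2 hpiL
  -- reparametrisation
  have hhs := contDiff_hfun (N := N) h1 h2 h3 h4
  obtain ⟨s, hs, hsΦ⟩ := exists_reparam hhs hVs (lower_pos h1 h2) (hfun_lower h1 h2 h3 h4)
  have hhc : Continuous (hfun z0 μ N) := hhs.continuous
  have hsdiff : ∀ x, HasDerivAt s (deriv s x) x := fun x =>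
    (hs.differentiable (by simp) x).hasDerivAt
  have hsd : ∀ x, deriv s x * hfun z0 μ N (s x) = V x := by
    intro x
    have h5 : HasDerivAt (fun u => ∫ t in (0:ℝ)..(s u), hfun z0 μ N t)
        (hfun z0 μ N (s x) * deriv s x) x := (hasDerivAt_prim hhc (s x)).comp x (hsdiff x)
    have h6 : HasDerivAt (fun u => ∫ t in (0:ℝ)..u, V t) (V x) x :=
      hasDerivAt_prim hVs.continuous x
    have h7 : (fun u => ∫ t in (0:ℝ)..(s u), hfun z0 μ N t) = fun u => ∫ t in (0:ℝ)..u, V t :=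
      funext hsΦ
    rw [h7] at h5
    have := h5.unique h6
    rw [← this]; ring
  have hΦmono : StrictMono (fun u => ∫ t in (0:ℝ)..u, hfun z0 μ N t) := by
    apply strictMono_of_deriv_pos
    intro x
    rw [(hasDerivAt_prim hhc x).deriv]
    exact lt_of_lt_of_le (lower_pos h1 h2) (hfun_lower h1 h2 h3 h4 x)
  have hs1 : ∀ x, s (x + 1) = s x + 2 * (2 * Real.pi) := by
    intro x
    apply hΦmono.injective
    simp only
    rw [hsΦ (x + 1), prim_add_period hVs.continuous pV x, ← hsΦ x, ← hldef]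
    have e : s x + 2 * (2 * Real.pi) = (s x + 2 * Real.pi) + 2 * Real.pi := by ring
    rw [e, prim_add_period hhc (hfun_periodic z0 μ N), prim_add_period hhc (hfun_periodic z0 μ N),
      hL]
    ring
  -- phase
  have hzs := contDiff_zfun z0 μ N
  have hZs : ContDiff ℝ ∞ (fun t => (1 + zfun z0 μ N t) / 2) :=
    (contDiff_const.add hzs).div_const 2
  have pZ : Function.Periodic (fun t => (1 + zfun z0 μ N t) / 2) (2 * Real.pi) := by
    intro t
    simp only
    rw [zfun_periodic z0 μ N t]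
  have hPsi : ∀ u, (∫ t in (0:ℝ)..(u + 2 * (2 * Real.pi)), (1 + zfun z0 μ N t) / 2)
      = (∫ t in (0:ℝ)..u, (1 + zfun z0 μ N t) / 2) + 2 * Real.pi * ρ := by
    intro u
    have e : u + 2 * (2 * Real.pi) = (u + 2 * Real.pi) + 2 * Real.pi := by ring
    rw [e, prim_add_period hZs.continuous pZ, prim_add_period hZs.continuous pZ,
      integral_half_one_add_z z0 μ N hN, hz0]
    ring
  obtain ⟨ψ, hψdef⟩ : ∃ ψ : ℝ → ℝ, ψ = fun x => (∫ t in (0:ℝ)..x, w t)
      - ∫ t in (0:ℝ)..(s x), (1 + zfun z0 μ N t) / 2 := ⟨_, rfl⟩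
  have hψs : ContDiff ℝ ∞ ψ := by
    rw [hψdef]
    exact (contDiff_prim hws).sub ((contDiff_prim hZs).comp hs)
  have hψd : ∀ x, HasDerivAt ψ (w x - (1 + zfun z0 μ N (s x)) / 2 * deriv s x) x := by
    intro x
    rw [hψdef]
    exact (hasDerivAt_prim hws.continuous x).sub
      ((hasDerivAt_prim hZs.continuous (s x)).comp x (hsdiff x))
  -- the integer
  obtain ⟨n, hn⟩ : ∃ n : ℤ, n = -1 - ⌊y⌋ := ⟨_, rfl⟩
  have hW1n : W1 - 2 * Real.pi * ρ = n * (2 * Real.pi) := by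
    have hfr : Int.fract y = y - ⌊y⌋ := by
      rw [Int.self_sub_floor]
    have hyW : y * (2 * Real.pi) = -W1 := by
      rw [hy]; field_simp
    rw [hn, hρ, hfr]
    push_cast
    linear_combination hyW
  have hψ1 : ∀ x, ψ (x + 1) = ψ x + n * (2 * Real.pi) := by
    intro x
    rw [hψdef]
    simp only
    rw [hs1 x, hPsi, prim_add_period hws.continuous pw x, ← hW1, ← hW1n]
    ring
  -- radial factor
  obtain ⟨r, hrdef⟩ : ∃ r : ℝ → ℝ, r = fun x => √(H x) / K := ⟨_, rfl⟩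
  have hrs : ContDiff ℝ ∞ r := by
    rw [hrdef]
    exact (hH.sqrt (fun x => (Hpos x).ne')).div_const K
  have pr : ∀ x, r (x + 1) = r x := by
    intro x
    rw [hrdef]
    simp only
    rw [pH x]
  have hrd : ∀ x, HasDerivAt r (deriv H x / (2 * √(H x)) / K) x := by
    intro x
    rw [hrdef]
    have hHd : HasDerivAt H (deriv H x) x := (hH.differentiable (by simp) x).hasDerivAt
    exact (hHd.sqrt (Hpos x).ne').div_const K
  have hrsq : ∀ x, (r x) ^ 2 = H x / K ^ 2 := by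
    intro x
    rw [hrdef]
    simp only
    rw [div_pow, Real.sq_sqrt (Hpos x).le]
  have hAs := contDiff_Afun (N := N) h1 h2 h3 h4
  have hBs := contDiff_Bfun (N := N) h1 h2 h3 h4
  have pA2 : ∀ t, Afun z0 μ N (t + 2 * (2 * Real.pi)) = Afun z0 μ N t := by
    intro t
    have e : t + 2 * (2 * Real.pi) = (t + 2 * Real.pi) + 2 * Real.pi := by ring
    rw [e, Afun_periodic z0 μ N, Afun_periodic z0 μ N]
  have pB2 : ∀ t, Bfun z0 μ N (t + 2 * (2 * Real.pi)) = Bfun z0 μ N t := by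
    intro t
    have e : t + 2 * (2 * Real.pi) = (t + 2 * Real.pi) + 2 * Real.pi := by ring
    rw [e, Bfun_periodic z0 μ N, Bfun_periodic z0 μ N]
  have hZZ : ∀ t, (1 + zfun z0 μ N t) / 2 = (Afun z0 μ N t) ^ 2 := fun t =>
    (Afun_sq h1 h2 h3 h4 t).symm
  refine ⟨k, fun x => r x * Afun z0 μ N (s x), fun x => r x * Bfun z0 μ N (s x),
    fun x => ψ x + s x, ψ, n + 2, n, hk, hrs.mul (hAs.comp hs), hrs.mul (hBs.comp hs),
    hψs.add hs, hψs, ?_, ?_, ?_, ?_, ?_⟩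
  · intro x
    simp only
    rw [pr x, hs1 x, pA2]
  · intro x
    simp only
    rw [pr x, hs1 x, pB2]
  · intro x
    simp only
    rw [hψ1 x, hs1 x]
    push_cast
    ring
  · intro x
    rw [hψ1 x]
  · intro x
    have hA0 := Afun_pos (N := N) h1 h2 h3 h4 (s x)
    have hB0 := Bfun_pos (N := N) h1 h2 h3 h4 (s x)
    have hAd := (hasDerivAt_Afun (N := N) h1 h2 h3 h4 (s x)).comp x (hsdiff x)
    have hBd := (hasDerivAt_Bfun (N := N) h1 h2 h3 h4 (s x)).comp x (hsdiff x)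
    have had : HasDerivAt (fun x => r x * Afun z0 μ N (s x)) _ x := (hrd x).mul hAd
    have hbd : HasDerivAt (fun x => r x * Bfun z0 μ N (s x)) _ x := (hrd x).mul hBd
    have hpd : HasDerivAt (fun x => ψ x + s x) _ x := (hψd x).add (hsdiff x)
    rw [had.deriv, hbd.deriv, hpd.deriv, (hψd x).deriv, hZZ (s x)]
    have hAB : (Afun z0 μ N (s x)) ^ 2 + (Bfun z0 μ N (s x)) ^ 2 = 1 := by
      rw [Afun_sq h1 h2 h3 h4, Bfun_sq h1 h2 h3 h4]; ring
    have hAB' : Afun z0 μ N (s x) * (dzfun μ N (s x) / (4 * Afun z0 μ N (s x)))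
        + Bfun z0 μ N (s x) * (-(dzfun μ N (s x) / (4 * Bfun z0 μ N (s x)))) = 0 := by
      field_simp
      ring
    have key := first_form_identity (r x) (deriv H x / (2 * √(H x)) / K) (Afun z0 μ N (s x))
      (Bfun z0 μ N (s x)) (dzfun μ N (s x) / (4 * Afun z0 μ N (s x)))
      (-(dzfun μ N (s x) / (4 * Bfun z0 μ N (s x)))) (deriv s x)
      (w x - (Afun z0 μ N (s x)) ^ 2 * deriv s x) (w x) (hfun z0 μ N (s x)) (V x)
      hAB hAB' rfl (hfun_sq_eq h1 h2 h3 h4 (s x)) (hsd x)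
    have hH0 := Hpos x
    have hsqrt : (√(H x)) ^ 2 = H x := Real.sq_sqrt hH0.le
    have hsqrtpos : 0 < √(H x) := Real.sqrt_pos.mpr hH0
    have hr2 := hrsq x
    have hwx : w x = K * G x / H x := by rw [hwdef]
    have hVx := hVsq x
    have hDx : D x = K ^ 2 * (E x * H x - G x ^ 2) - (deriv H x) ^ 2 / 4 := by rw [hDdef]
    refine ⟨?_, ?_, ?_⟩
    · have lhs : (deriv H x / (2 * √(H x)) / K * Afun z0 μ N (s x)
            + r x * (dzfun μ N (s x) / (4 * Afun z0 μ N (s x)) * deriv s x)) ^ 2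
          + (r x * Afun z0 μ N (s x)) ^ 2
            * (w x - (Afun z0 μ N (s x)) ^ 2 * deriv s x + deriv s x) ^ 2
          + (deriv H x / (2 * √(H x)) / K * Bfun z0 μ N (s x)
            + r x * (-(dzfun μ N (s x) / (4 * Bfun z0 μ N (s x))) * deriv s x)) ^ 2
          + (r x * Bfun z0 μ N (s x)) ^ 2
            * (w x - (Afun z0 μ N (s x)) ^ 2 * deriv s x) ^ 2
          = (deriv H x / (2 * √(H x)) / K) ^ 2 + (r x) ^ 2 * (w x) ^ 2
            + (r x) ^ 2 * (V x) ^ 2 := key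
      rw [lhs, hr2, hwx, hVx, hDx]
      have e1 : (deriv H x / (2 * √(H x)) / K) ^ 2 = (deriv H x) ^ 2 / (4 * H x * K ^ 2) := by
        rw [div_pow, div_pow, mul_pow, hsqrt]
        norm_num
        field_simp
      rw [e1]
      field_simp
      ring
    · have e2 : (r x * Afun z0 μ N (s x)) ^ 2
            * (w x - (Afun z0 μ N (s x)) ^ 2 * deriv s x + deriv s x)
          + (r x * Bfun z0 μ N (s x)) ^ 2 * (w x - (Afun z0 μ N (s x)) ^ 2 * deriv s x)
          = (r x) ^ 2 * w x := by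
        linear_combination ((r x) ^ 2 * (w x - (Afun z0 μ N (s x)) ^ 2 * deriv s x)) * hAB
      rw [← hKdef, e2, hr2, hwx]
      field_simp
    · have e3 : (r x * Afun z0 μ N (s x)) ^ 2 + (r x * Bfun z0 μ N (s x)) ^ 2 = (r x) ^ 2 := by
        linear_combination ((r x) ^ 2) * hAB
      rw [← hKdef, e3, hr2]
      field_simp

end Vale.Agent.Lib.P205
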