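import Mathlib
import Vale.Agent.Lib.P205.Assemble

open scoped ContDiff

namespace Vale.Agent.Lib.P205

lemma hasFDerivAt_cos_term {a p : ℝ → ℝ} {a' p' : ℝ} (K x y : ℝ)
    (ha : HasDerivAt a a' x) (hp : HasDerivAt p p' x) :
    HasFDerivAt (fun q : ℝ × ℝ => a q.1 * Real.cos (p q.1 + K * q.2))
      ((a' * Real.cos (p x + K * y) - a x * p' * Real.sin (p x + K * y)) •
          ContinuousLinearMap.fst ℝ ℝ ℝ
        + (-(a x * K * Real.sin (p x + K * y))) • ContinuousLinearMap.snd ℝ ℝ ℝ) (x, y) := by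
  have hfst : HasFDerivAt (fun q : ℝ × ℝ => q.1) (ContinuousLinearMap.fst ℝ ℝ ℝ) (x, y) :=
    hasFDerivAt_fst
  have hsnd : HasFDerivAt (fun q : ℝ × ℝ => q.2) (ContinuousLinearMap.snd ℝ ℝ ℝ) (x, y) :=
    hasFDerivAt_snd
  have h1 : HasFDerivAt (fun q : ℝ × ℝ => a q.1) (a' • ContinuousLinearMap.fst ℝ ℝ ℝ) (x, y) :=
    HasDerivAt.comp_hasFDerivAt (x, y) (h₂ := a) ha hfst
  have h2 : HasFDerivAt (fun q : ℝ × ℝ => p q.1) (p' • ContinuousLinearMap.fst ℝ ℝ ℝ) (x, y) :=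
    HasDerivAt.comp_hasFDerivAt (x, y) (h₂ := p) hp hfst
  have h3 : HasFDerivAt (fun q : ℝ × ℝ => p q.1 + K * q.2)
      (p' • ContinuousLinearMap.fst ℝ ℝ ℝ + K • ContinuousLinearMap.snd ℝ ℝ ℝ) (x, y) :=
    h2.add (hsnd.const_mul K)
  have h4 := h3.cos
  have h5 := h1.mul h4
  refine h5.congr_fderiv ?_
  ext <;> simp <;> ring

lemma hasFDerivAt_sin_term {a p : ℝ → ℝ} {a' p' : ℝ} (K x y : ℝ)
    (ha : HasDerivAt a a' x) (hp : HasDerivAt p p' x) :
    HasFDerivAt (fun q : ℝ × ℝ => a q.1 * Real.sin (p q.1 + K * q.2))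
      ((a' * Real.sin (p x + K * y) + a x * p' * Real.cos (p x + K * y)) •
          ContinuousLinearMap.fst ℝ ℝ ℝ
        + (a x * K * Real.cos (p x + K * y)) • ContinuousLinearMap.snd ℝ ℝ ℝ) (x, y) := by
  have hfst : HasFDerivAt (fun q : ℝ × ℝ => q.1) (ContinuousLinearMap.fst ℝ ℝ ℝ) (x, y) :=
    hasFDerivAt_fst
  have hsnd : HasFDerivAt (fun q : ℝ × ℝ => q.2) (ContinuousLinearMap.snd ℝ ℝ ℝ) (x, y) :=
    hasFDerivAt_snd
  have h1 : HasFDerivAt (fun q : ℝ × ℝ => a q.1) (a' • ContinuousLinearMap.fst ℝ ℝ ℝ) (x, y) :=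
    HasDerivAt.comp_hasFDerivAt (x, y) (h₂ := a) ha hfst
  have h2 : HasFDerivAt (fun q : ℝ × ℝ => p q.1) (p' • ContinuousLinearMap.fst ℝ ℝ ℝ) (x, y) :=
    HasDerivAt.comp_hasFDerivAt (x, y) (h₂ := p) hp hfst
  have h3 : HasFDerivAt (fun q : ℝ × ℝ => p q.1 + K * q.2)
      (p' • ContinuousLinearMap.fst ℝ ℝ ℝ + K • ContinuousLinearMap.snd ℝ ℝ ℝ) (x, y) :=
    h2.add (hsnd.const_mul K)
  have h4 := h3.sin
  have h5 := h1.mul h4
  refine h5.congr_fderiv ?_
  ext <;> simp <;> ring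

lemma inner_alg (a a' p' b b' q' K c₁ s₁ c₂ s₂ v1 v2 w1 w2 : ℝ)
    (h1 : s₁ ^ 2 + c₁ ^ 2 = 1) (h2 : s₂ ^ 2 + c₂ ^ 2 = 1) :
    ((a' * c₁ - a * p' * s₁) * v1 + (-(a * K * s₁)) * v2)
        * ((a' * c₁ - a * p' * s₁) * w1 + (-(a * K * s₁)) * w2)
      + ((a' * s₁ + a * p' * c₁) * v1 + (a * K * c₁) * v2)
        * ((a' * s₁ + a * p' * c₁) * w1 + (a * K * c₁) * w2)
      + ((b' * c₂ - b * q' * s₂) * v1 + (-(b * K * s₂)) * v2)
        * ((b' * c₂ - b * q' * s₂) * w1 + (-(b * K * s₂)) * w2)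
      + ((b' * s₂ + b * q' * c₂) * v1 + (b * K * c₂) * v2)
        * ((b' * s₂ + b * q' * c₂) * w1 + (b * K * c₂) * w2)
    = (a' ^ 2 + a ^ 2 * p' ^ 2 + b' ^ 2 + b ^ 2 * q' ^ 2) * v1 * w1
      + (K * (a ^ 2 * p' + b ^ 2 * q')) * (v1 * w2 + v2 * w1)
      + (K ^ 2 * (a ^ 2 + b ^ 2)) * v2 * w2 := by
  linear_combination
    ((a' ^ 2 + a ^ 2 * p' ^ 2) * v1 * w1 + K * a ^ 2 * p' * (v1 * w2 + v2 * w1)
      + K ^ 2 * a ^ 2 * v2 * w2) * h1
    + ((b' ^ 2 + b ^ 2 * q' ^ 2) * v1 * w1 + K * b ^ 2 * q' * (v1 * w2 + v2 * w1)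
      + K ^ 2 * b ^ 2 * v2 * w2) * h2

/-- S^1-invariant metrics on the two-torus are induced by smooth maps to four-space. -/
theorem invariant_torus_immersion
    (E G H : ℝ → ℝ)
    (hE : ContDiff ℝ ∞ E) (hG : ContDiff ℝ ∞ G) (hH : ContDiff ℝ ∞ H)
    (pE : Function.Periodic E 1) (pG : Function.Periodic G 1) (pH : Function.Periodic H 1)
    (hEpos : ∀ x, 0 < E x) (hdet : ∀ x, 0 < E x * H x - G x ^ 2) :
    ∃ F : ℝ × ℝ → EuclideanSpace ℝ (Fin 4),
      ContDiff ℝ ∞ F ∧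
      (∀ x y, F (x + 1, y) = F (x, y)) ∧
      (∀ x y, F (x, y + 1) = F (x, y)) ∧
      ∀ q v w : ℝ × ℝ,
        inner ℝ (fderiv ℝ F q v) (fderiv ℝ F q w) =
          E q.1 * v.1 * w.1 + G q.1 * (v.1 * w.2 + v.2 * w.1) + H q.1 * v.2 * w.2 := by
  obtain ⟨k, a, b, p, q, n₁, n₂, hk, ha, hb, hp, hq, pa, pb, pp, pq, hid⟩ :=
    exists_profile hE hG hH pE pG pH hEpos hdet
  obtain ⟨K, hKdef⟩ : ∃ K : ℝ, K = 2 * Real.pi * k := ⟨_, rfl⟩
  rw [← hKdef] at hid
  have hadd : ∀ (f : ℝ → ℝ), ContDiff ℝ ∞ f → ContDiff ℝ ∞ (fun z : ℝ × ℝ => f z.1 + K * z.2) := by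
    intro f hf
    exact (hf.comp contDiff_fst).add (contDiff_const.mul contDiff_snd)
  let comp : ℝ × ℝ → Fin 4 → ℝ := fun z => ![a z.1 * Real.cos (p z.1 + K * z.2),
      a z.1 * Real.sin (p z.1 + K * z.2), b z.1 * Real.cos (q z.1 + K * z.2),
      b z.1 * Real.sin (q z.1 + K * z.2)]
  have hcomp0 : ContDiff ℝ ∞ (fun z : ℝ × ℝ => a z.1 * Real.cos (p z.1 + K * z.2)) :=
    (ha.comp contDiff_fst).mul (Real.contDiff_cos.comp (hadd p hp))
  have hcomp1 : ContDiff ℝ ∞ (fun z : ℝ × ℝ => a z.1 * Real.sin (p z.1 + K * z.2)) :=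
    (ha.comp contDiff_fst).mul (Real.contDiff_sin.comp (hadd p hp))
  have hcomp2 : ContDiff ℝ ∞ (fun z : ℝ × ℝ => b z.1 * Real.cos (q z.1 + K * z.2)) :=
    (hb.comp contDiff_fst).mul (Real.contDiff_cos.comp (hadd q hq))
  have hcomp3 : ContDiff ℝ ∞ (fun z : ℝ × ℝ => b z.1 * Real.sin (q z.1 + K * z.2)) :=
    (hb.comp contDiff_fst).mul (Real.contDiff_sin.comp (hadd q hq))
  refine ⟨fun z => WithLp.toLp 2 (comp z), ?_, ?_, ?_, ?_⟩
  · rw [contDiff_euclidean]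
    intro i
    fin_cases i
    · exact hcomp0
    · exact hcomp1
    · exact hcomp2
    · exact hcomp3
  · intro x y
    refine congrArg (WithLp.toLp 2) ?_
    show ![a (x + 1) * Real.cos (p (x + 1) + K * y), a (x + 1) * Real.sin (p (x + 1) + K * y),
        b (x + 1) * Real.cos (q (x + 1) + K * y), b (x + 1) * Real.sin (q (x + 1) + K * y)]
      = ![a x * Real.cos (p x + K * y), a x * Real.sin (p x + K * y),
        b x * Real.cos (q x + K * y), b x * Real.sin (q x + K * y)]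
    rw [pa x, pb x, pp x, pq x]
    have e1 : p x + n₁ * (2 * Real.pi) + K * y = (p x + K * y) + n₁ * (2 * Real.pi) := by ring
    have e2 : q x + n₂ * (2 * Real.pi) + K * y = (q x + K * y) + n₂ * (2 * Real.pi) := by ring
    rw [e1, e2, Real.cos_add_int_mul_two_pi, Real.sin_add_int_mul_two_pi,
      Real.cos_add_int_mul_two_pi, Real.sin_add_int_mul_two_pi]
  · intro x y
    refine congrArg (WithLp.toLp 2) ?_
    show ![a x * Real.cos (p x + K * (y + 1)), a x * Real.sin (p x + K * (y + 1)),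
        b x * Real.cos (q x + K * (y + 1)), b x * Real.sin (q x + K * (y + 1))]
      = ![a x * Real.cos (p x + K * y), a x * Real.sin (p x + K * y),
        b x * Real.cos (q x + K * y), b x * Real.sin (q x + K * y)]
    have e1 : p x + K * (y + 1) = (p x + K * y) + (k : ℕ) * (2 * Real.pi) := by
      rw [hKdef]; ring
    have e2 : q x + K * (y + 1) = (q x + K * y) + (k : ℕ) * (2 * Real.pi) := by
      rw [hKdef]; ring
    rw [e1, e2, Real.cos_add_nat_mul_two_pi, Real.sin_add_nat_mul_two_pi,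
      Real.cos_add_nat_mul_two_pi, Real.sin_add_nat_mul_two_pi]
  · rintro ⟨x, y⟩ v w
    have hda := (ha.differentiable (by simp) x).hasDerivAt
    have hdb := (hb.differentiable (by simp) x).hasDerivAt
    have hdp := (hp.differentiable (by simp) x).hasDerivAt
    have hdq := (hq.differentiable (by simp) x).hasDerivAt
    have t0 := hasFDerivAt_cos_term K x y hda hdp
    have t1 := hasFDerivAt_sin_term K x y hda hdp
    have t2 := hasFDerivAt_cos_term K x y hdb hdq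
    have t3 := hasFDerivAt_sin_term K x y hdb hdq
    have hFs : ContDiff ℝ ∞ (fun z => WithLp.toLp 2 (comp z) : ℝ × ℝ → EuclideanSpace ℝ (Fin 4)) := by
      rw [contDiff_euclidean]
      intro i
      fin_cases i
      · exact hcomp0
      · exact hcomp1
      · exact hcomp2
      · exact hcomp3
    have hFd := (hFs.differentiable (by simp) (x, y)).hasFDerivAt
    have hcompo : ∀ (i : Fin 4), HasFDerivAt (fun z => comp z i)
        ((PiLp.proj 2 (fun _ : Fin 4 => ℝ) i).toContinuousLinearMap ∘L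
          fderiv ℝ (fun z => WithLp.toLp 2 (comp z) : ℝ × ℝ → EuclideanSpace ℝ (Fin 4)) (x, y)) (x, y) := by
      intro i
      exact ((PiLp.proj 2 (fun _ : Fin 4 => ℝ) i).hasFDerivAt).comp (x, y) hFd
    have hval : ∀ (i : Fin 4) (u : ℝ × ℝ),
        (fderiv ℝ (fun z => WithLp.toLp 2 (comp z) : ℝ × ℝ → EuclideanSpace ℝ (Fin 4)) (x, y) u).ofLp i
          = fderiv ℝ (fun z => comp z i) (x, y) u := by
      intro i u
      rw [(hcompo i).fderiv]
      rfl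
    rw [PiLp.inner_apply, Fin.sum_univ_four]
    simp only [RCLike.inner_apply, conj_trivial]
    rw [hval, hval, hval, hval, hval, hval, hval, hval]
    have f0 : fderiv ℝ (fun z => comp z 0) (x, y) = _ := t0.fderiv
    have f1 : fderiv ℝ (fun z => comp z 1) (x, y) = _ := t1.fderiv
    have f2 : fderiv ℝ (fun z => comp z 2) (x, y) = _ := t2.fderiv
    have f3 : fderiv ℝ (fun z => comp z 3) (x, y) = _ := t3.fderiv
    rw [f0, f1, f2, f3]
    simp only [add_apply, smul_apply, ContinuousLinearMap.coe_fst', ContinuousLinearMap.coe_snd',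
      smul_eq_mul]
    obtain ⟨hE', hG', hH'⟩ := hid x
    rw [← hE', ← hG', ← hH']
    have := inner_alg (a x) (deriv a x) (deriv p x) (b x) (deriv b x) (deriv q x) K
      (Real.cos (p x + K * y)) (Real.sin (p x + K * y)) (Real.cos (q x + K * y))
      (Real.sin (q x + K * y)) v.1 v.2 w.1 w.2 (Real.sin_sq_add_cos_sq _) (Real.sin_sq_add_cos_sq _)
    linear_combination this

end Vale.Agent.Lib.P205
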