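import Mathlib
import Vale.Agent.Lib.P205.Immersion

/-!
Every flat Klein bottle has a smooth isometric immersion into four-space.

The Klein bottle is the quotient of the plane by the glide reflection `(x, y) ↦ (-x, y + a)` and the
translation `(x, y) ↦ (x + b, y)`. With `K₁ = 2 π n / a`, `K₂ = (2 n + 1) π / a` the map is, in the
parameter `t`,
`(cos t / K₁ · e^{i K₁ (y - (λ/2) sin⁴ t)}, sin t / K₂ · e^{i K₂ (y - (λ/2) cos⁴ t)})`,
whose induced metric is `dy² + Q(t) dt²`, `Q = sin² t / K₁² + cos² t / K₂² + 4 λ² sin⁴ t cos⁴ t`.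
The parameter `λ` adjusts the total length, and `x = ∫ √Q dt` is the arclength.
-/

open scoped ContDiff
open MeasureTheory Set

namespace Vale.Agent.Lib.P205

/-- The speed squared in the parameter `t`. -/
noncomputable def kleinQ (K₁ K₂ l t : ℝ) : ℝ :=
  Real.sin t ^ 2 / K₁ ^ 2 + Real.cos t ^ 2 / K₂ ^ 2 + 4 * l ^ 2 * Real.sin t ^ 4 * Real.cos t ^ 4

lemma kleinQ_lower {K₁ K₂ : ℝ} (h1 : 0 < K₁) (h12 : K₁ ≤ K₂) (l t : ℝ) :
    1 / K₂ ^ 2 ≤ kleinQ K₁ K₂ l t := by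
  unfold kleinQ
  have h2 : 0 < K₂ := lt_of_lt_of_le h1 h12
  have hq : 1 / K₂ ^ 2 ≤ 1 / K₁ ^ 2 := by
    apply one_div_le_one_div_of_le (by positivity)
    exact pow_le_pow_left₀ h1.le h12 2
  have hs : 0 ≤ Real.sin t ^ 2 := by positivity
  have e1 : Real.sin t ^ 2 / K₁ ^ 2 = Real.sin t ^ 2 * (1 / K₁ ^ 2) := by ring
  have e2 : Real.cos t ^ 2 / K₂ ^ 2 = Real.cos t ^ 2 * (1 / K₂ ^ 2) := by ring
  have e3 : (1 : ℝ) / K₂ ^ 2 = (Real.sin t ^ 2 + Real.cos t ^ 2) * (1 / K₂ ^ 2) := by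
    rw [Real.sin_sq_add_cos_sq, one_mul]
  have h3 : 0 ≤ 4 * l ^ 2 * Real.sin t ^ 4 * Real.cos t ^ 4 := by positivity
  rw [e1, e2, e3]
  nlinarith [mul_le_mul_of_nonneg_left hq hs]

lemma kleinQ_pos {K₁ K₂ : ℝ} (h1 : 0 < K₁) (h12 : K₁ ≤ K₂) (l t : ℝ) :
    0 < kleinQ K₁ K₂ l t := by
  have h2 : 0 < K₂ := lt_of_lt_of_le h1 h12
  exact lt_of_lt_of_le (by positivity) (kleinQ_lower h1 h12 l t)

lemma continuous_kleinQ_two (K₁ K₂ : ℝ) :
    Continuous (fun p : ℝ × ℝ => kleinQ K₁ K₂ p.1 p.2) := by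
  unfold kleinQ
  fun_prop

lemma contDiff_kleinQ (K₁ K₂ l : ℝ) : ContDiff ℝ ∞ (kleinQ K₁ K₂ l) := by
  unfold kleinQ
  have hs : ContDiff ℝ ∞ Real.sin := Real.contDiff_sin
  have hc : ContDiff ℝ ∞ Real.cos := Real.contDiff_cos
  exact ((hs.pow 2).div_const _).add ((hc.pow 2).div_const _) |>.add
    ((contDiff_const.mul (hs.pow 4)).mul (hc.pow 4))

/-- The integral of `2 sin² cos²` over a full period. -/
lemma integral_two_sin_sq_cos_sq :
    (∫ t in (0:ℝ)..(2 * Real.pi), 2 * (Real.sin t ^ 2 * Real.cos t ^ 2)) = Real.pi / 2 := by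
  have hid : ∀ t : ℝ, 2 * (Real.sin t ^ 2 * Real.cos t ^ 2) = 1 / 4 - Real.cos (4 * t) / 4 := by
    intro t
    have e : (4 : ℝ) * t = 2 * (2 * t) := by ring
    have hs : Real.sin t ^ 2 = 1 - Real.cos t ^ 2 := by
      have := Real.sin_sq_add_cos_sq t
      linarith
    rw [e, Real.cos_two_mul (2 * t), Real.cos_two_mul t, hs]
    ring
  have hder : ∀ t ∈ uIcc (0:ℝ) (2 * Real.pi),
      HasDerivAt (fun t : ℝ => t / 4 - Real.sin (4 * t) / 16)
        (2 * (Real.sin t ^ 2 * Real.cos t ^ 2)) t := by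
    intro t _
    have h1 : HasDerivAt (fun t : ℝ => (4:ℝ) * t) 4 t := by
      simpa using (hasDerivAt_id t).const_mul (4:ℝ)
    have h2 := (Real.hasDerivAt_sin (4 * t)).comp t h1
    have h3 := ((hasDerivAt_id t).div_const (4:ℝ)).sub (h2.div_const (16:ℝ))
    refine h3.congr_deriv ?_
    rw [hid t]
    ring
  have hcont : Continuous (fun t : ℝ => 2 * (Real.sin t ^ 2 * Real.cos t ^ 2)) := by fun_prop
  rw [intervalIntegral.integral_eq_sub_of_hasDerivAt hder (hcont.intervalIntegrable _ _)]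
  have s1 : Real.sin (4 * (2 * Real.pi)) = 0 := by
    have : (4:ℝ) * (2 * Real.pi) = ((8 : ℕ) : ℝ) * Real.pi := by push_cast; ring
    rw [this, Real.sin_nat_mul_pi]
  simp only [s1, mul_zero, Real.sin_zero]
  ring

/-- The parameter adjusting the total length. -/
lemma exists_klein_lambda {K₁ K₂ b : ℝ} (h1 : 0 < K₁) (h12 : K₁ ≤ K₂) (hb : 2 * Real.pi / K₁ ≤ b) :
    ∃ l : ℝ, (∫ t in (0:ℝ)..(2 * Real.pi), √(kleinQ K₁ K₂ l t)) = b := by
  have h2 : 0 < K₂ := lt_of_lt_of_le h1 h12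
  have hpi := Real.pi_pos
  have hbpos : 0 < b := lt_of_lt_of_le (by positivity) hb
  set L : ℝ → ℝ := fun l => ∫ t in (0:ℝ)..(2 * Real.pi), √(kleinQ K₁ K₂ l t) with hL
  have hLc : Continuous L := by
    apply intervalIntegral.continuous_parametric_intervalIntegral_of_continuous'
    exact (continuous_kleinQ_two K₁ K₂).sqrt
  have hcont : ∀ l, Continuous (fun t => √(kleinQ K₁ K₂ l t)) := fun l =>
    ((contDiff_kleinQ K₁ K₂ l).continuous).sqrt
  -- upper bound at zero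
  have h0 : L 0 ≤ b := by
    have hle : ∀ t ∈ Icc (0:ℝ) (2 * Real.pi), √(kleinQ K₁ K₂ 0 t) ≤ 1 / K₁ := by
      intro t _
      apply Real.sqrt_le_iff.mpr
      refine ⟨by positivity, ?_⟩
      unfold kleinQ
      have hq : 1 / K₂ ^ 2 ≤ 1 / K₁ ^ 2 := by
        apply one_div_le_one_div_of_le (by positivity)
        exact pow_le_pow_left₀ h1.le h12 2
      have hc : 0 ≤ Real.cos t ^ 2 := by positivity
      have e2 : Real.cos t ^ 2 / K₂ ^ 2 = Real.cos t ^ 2 * (1 / K₂ ^ 2) := by ring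
      have e1 : Real.sin t ^ 2 / K₁ ^ 2 = Real.sin t ^ 2 * (1 / K₁ ^ 2) := by ring
      have e3 : (1 / K₁) ^ 2 = (Real.sin t ^ 2 + Real.cos t ^ 2) * (1 / K₁ ^ 2) := by
        rw [Real.sin_sq_add_cos_sq, one_mul]; ring
      rw [e1, e2, e3]
      nlinarith [mul_le_mul_of_nonneg_left hq hc]
    have hint := intervalIntegral.integral_mono_on (μ := volume) (a := 0) (b := 2 * Real.pi)
      (f := fun t => √(kleinQ K₁ K₂ 0 t)) (g := fun _ => 1 / K₁) (by positivity)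
      ((hcont 0).intervalIntegrable _ _) intervalIntegrable_const hle
    simp only [intervalIntegral.integral_const, sub_zero, smul_eq_mul] at hint
    calc L 0 ≤ 2 * Real.pi * (1 / K₁) := hint
      _ = 2 * Real.pi / K₁ := by ring
      _ ≤ b := hb
  -- lower bound at a large parameter
  have h3 : b ≤ L (2 * b / Real.pi) := by
    set l₁ : ℝ := 2 * b / Real.pi with hl₁
    have hl₁pos : 0 < l₁ := by positivity
    have hle : ∀ t ∈ Icc (0:ℝ) (2 * Real.pi),
        l₁ * (2 * (Real.sin t ^ 2 * Real.cos t ^ 2)) ≤ √(kleinQ K₁ K₂ l₁ t) := by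
      intro t _
      apply Real.le_sqrt_of_sq_le
      unfold kleinQ
      have : 0 ≤ Real.sin t ^ 2 / K₁ ^ 2 := by positivity
      have : 0 ≤ Real.cos t ^ 2 / K₂ ^ 2 := by positivity
      nlinarith
    have hc2 : Continuous (fun t : ℝ => l₁ * (2 * (Real.sin t ^ 2 * Real.cos t ^ 2))) := by fun_prop
    have hint := intervalIntegral.integral_mono_on (μ := volume) (a := 0) (b := 2 * Real.pi)
      (f := fun t => l₁ * (2 * (Real.sin t ^ 2 * Real.cos t ^ 2)))
      (g := fun t => √(kleinQ K₁ K₂ l₁ t)) (by positivity)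
      (hc2.intervalIntegrable _ _) ((hcont l₁).intervalIntegrable _ _) hle
    rw [intervalIntegral.integral_const_mul, integral_two_sin_sq_cos_sq] at hint
    have e : l₁ * (Real.pi / 2) = b := by rw [hl₁]; field_simp
    rw [e] at hint
    exact hint
  have hl₁ : (0:ℝ) ≤ 2 * b / Real.pi := by positivity
  obtain ⟨l, _, hl⟩ := intermediate_value_Icc hl₁ hLc.continuousOn ⟨h0, h3⟩
  exact ⟨l, hl⟩

/-- The first fundamental form of the map with two frequencies. -/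
lemma inner_alg2 (a a' p' b b' q' K₁ K₂ c₁ s₁ c₂ s₂ v1 v2 w1 w2 : ℝ)
    (h1 : s₁ ^ 2 + c₁ ^ 2 = 1) (h2 : s₂ ^ 2 + c₂ ^ 2 = 1) :
    ((a' * c₁ - a * p' * s₁) * v1 + (-(a * K₁ * s₁)) * v2)
        * ((a' * c₁ - a * p' * s₁) * w1 + (-(a * K₁ * s₁)) * w2)
      + ((a' * s₁ + a * p' * c₁) * v1 + (a * K₁ * c₁) * v2)
        * ((a' * s₁ + a * p' * c₁) * w1 + (a * K₁ * c₁) * w2)
      + ((b' * c₂ - b * q' * s₂) * v1 + (-(b * K₂ * s₂)) * v2)
        * ((b' * c₂ - b * q' * s₂) * w1 + (-(b * K₂ * s₂)) * w2)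
      + ((b' * s₂ + b * q' * c₂) * v1 + (b * K₂ * c₂) * v2)
        * ((b' * s₂ + b * q' * c₂) * w1 + (b * K₂ * c₂) * w2)
    = (a' ^ 2 + a ^ 2 * p' ^ 2 + b' ^ 2 + b ^ 2 * q' ^ 2) * v1 * w1
      + (K₁ * a ^ 2 * p' + K₂ * b ^ 2 * q') * (v1 * w2 + v2 * w1)
      + (K₁ ^ 2 * a ^ 2 + K₂ ^ 2 * b ^ 2) * v2 * w2 := by
  linear_combination
    ((a' ^ 2 + a ^ 2 * p' ^ 2) * v1 * w1 + K₁ * a ^ 2 * p' * (v1 * w2 + v2 * w1)
      + K₁ ^ 2 * a ^ 2 * v2 * w2) * h1
    + ((b' ^ 2 + b ^ 2 * q' ^ 2) * v1 * w1 + K₂ * b ^ 2 * q' * (v1 * w2 + v2 * w1)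
      + K₂ ^ 2 * b ^ 2 * v2 * w2) * h2

/-- The arclength parameter: odd, with the right period, and with the right speed. -/
lemma exists_klein_reparam {K₁ K₂ l b : ℝ} (h1 : 0 < K₁) (h12 : K₁ ≤ K₂)
    (hl : (∫ t in (0:ℝ)..(2 * Real.pi), √(kleinQ K₁ K₂ l t)) = b) :
    ∃ s : ℝ → ℝ, ContDiff ℝ ∞ s ∧ (∀ x, s (-x) = - s x) ∧ (∀ x, s (x + b) = s x + 2 * Real.pi) ∧
      ∀ x, deriv s x ^ 2 * kleinQ K₁ K₂ l (s x) = 1 := by
  have h2 : 0 < K₂ := lt_of_lt_of_le h1 h12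
  set h : ℝ → ℝ := fun t => √(kleinQ K₁ K₂ l t) with hh
  have hQpos := kleinQ_pos h1 h12 l
  have hsm : ContDiff ℝ ∞ h := (contDiff_kleinQ K₁ K₂ l).sqrt (fun t => (hQpos t).ne')
  have hlow : ∀ t, 1 / K₂ ≤ h t := by
    intro t
    apply Real.le_sqrt_of_sq_le
    have := kleinQ_lower h1 h12 l t
    calc (1 / K₂) ^ 2 = 1 / K₂ ^ 2 := by ring
      _ ≤ _ := this
  have hcont : Continuous h := hsm.continuous
  have hpos : ∀ t, 0 < h t := fun t => lt_of_lt_of_le (by positivity) (hlow t)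
  obtain ⟨s, hs, hsx⟩ := exists_reparam hsm (contDiff_const (c := (1:ℝ))) (c := 1 / K₂)
    (by positivity) hlow
  have hsx' : ∀ x, (∫ t in (0:ℝ)..(s x), h t) = x := by
    intro x
    rw [hsx x]
    simp
  set Φ : ℝ → ℝ := fun u => ∫ t in (0:ℝ)..u, h t with hΦ
  have hd : ∀ x, HasDerivAt Φ (h x) x := hasDerivAt_prim hcont
  have hmono : StrictMono Φ := by
    apply strictMono_of_deriv_pos
    intro x
    rw [(hd x).deriv]
    exact hpos x
  -- evenness and periodicity of the speed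
  have heven : ∀ t, h (-t) = h t := by
    intro t
    simp only [hh, kleinQ, Real.sin_neg, Real.cos_neg]
    congr 1
    ring
  have hper : Function.Periodic h (2 * Real.pi) := by
    intro t
    simp only [hh, kleinQ, Real.sin_add_two_pi, Real.cos_add_two_pi]
  have hodd : ∀ t, Φ (-t) = - Φ t := by
    intro t
    have e1 : (∫ τ in (0:ℝ)..t, h (-τ)) = ∫ τ in (-t)..(-0:ℝ), h τ :=
      intervalIntegral.integral_comp_neg (a := 0) (b := t) h
    have e2 : (∫ τ in (0:ℝ)..t, h (-τ)) = Φ t := by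
      simp only [hΦ, heven]
    have e3 : (∫ τ in (-t)..(-0:ℝ), h τ) = - Φ (-t) := by
      rw [neg_zero, intervalIntegral.integral_symm]
    rw [e2, e3] at e1
    linarith
  refine ⟨s, hs, ?_, ?_, ?_⟩
  · intro x
    apply hmono.injective
    rw [hodd (s x)]
    show (∫ t in (0:ℝ)..(s (-x)), h t) = - (∫ t in (0:ℝ)..(s x), h t)
    rw [hsx', hsx']
  · intro x
    apply hmono.injective
    show (∫ t in (0:ℝ)..(s (x + b)), h t) = ∫ t in (0:ℝ)..(s x + 2 * Real.pi), h t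
    rw [hsx', prim_add_period hcont hper (s x), hsx', hl]
  · intro x
    have hds : HasDerivAt s (deriv s x) x := (hs.differentiable (by simp) x).hasDerivAt
    have hcomp : HasDerivAt (fun x => Φ (s x)) (h (s x) * deriv s x) x :=
      (hd (s x)).comp x hds
    have hid : (fun x => Φ (s x)) = fun x => x := funext hsx'
    rw [hid] at hcomp
    have h1' : h (s x) * deriv s x = 1 := hcomp.unique (hasDerivAt_id x)
    have hq : h (s x) ^ 2 = kleinQ K₁ K₂ l (s x) := Real.sq_sqrt (hQpos _).le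
    rw [← hq]
    calc deriv s x ^ 2 * h (s x) ^ 2 = (h (s x) * deriv s x) ^ 2 := by ring
      _ = 1 := by rw [h1']; ring

/-- Every flat Klein bottle, the quotient of the Euclidean plane by the glide reflection
`(x, y) ↦ (-x, y + a)` and the translation `(x, y) ↦ (x + b, y)`, has a smooth isometric immersion
into four-space. -/
theorem flat_klein_immersion {a b : ℝ} (ha : 0 < a) (hb : 0 < b) :
    ∃ F : ℝ × ℝ → EuclideanSpace ℝ (Fin 4), ContDiff ℝ ∞ F ∧
      (∀ x y, F (-x, y + a) = F (x, y)) ∧ (∀ x y, F (x + b, y) = F (x, y)) ∧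
      ∀ q v w : ℝ × ℝ, inner ℝ (fderiv ℝ F q v) (fderiv ℝ F q w) = v.1 * w.1 + v.2 * w.2 := by
  have hpi := Real.pi_pos
  -- the frequencies
  obtain ⟨n, hn1, hnb⟩ : ∃ n : ℕ, 1 ≤ n ∧ a / n ≤ b := by
    refine ⟨⌈a / b⌉₊ + 1, by omega, ?_⟩
    have h1 : a / b ≤ ⌈a / b⌉₊ := Nat.le_ceil _
    have h2 : (0:ℝ) < ((⌈a / b⌉₊ + 1 : ℕ) : ℝ) := by positivity
    rw [div_le_iff₀ h2]
    have h3 : a ≤ b * ⌈a / b⌉₊ := by
      rw [div_le_iff₀ hb] at h1
      linarith
    push_cast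
    nlinarith
  have hnpos : (0:ℝ) < n := by exact_mod_cast hn1
  obtain ⟨K₁, hK₁⟩ : ∃ K₁ : ℝ, K₁ = 2 * Real.pi * n / a := ⟨_, rfl⟩
  obtain ⟨K₂, hK₂⟩ : ∃ K₂ : ℝ, K₂ = (2 * n + 1) * Real.pi / a := ⟨_, rfl⟩
  have h1 : 0 < K₁ := by rw [hK₁]; positivity
  have h12 : K₁ ≤ K₂ := by
    rw [hK₁, hK₂]
    apply div_le_div_of_nonneg_right _ ha.le
    nlinarith
  have h2 : 0 < K₂ := lt_of_lt_of_le h1 h12
  have hK₁a : K₁ * a = n * (2 * Real.pi) := by rw [hK₁]; field_simp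
  have hK₂a : K₂ * a = Real.pi + n * (2 * Real.pi) := by rw [hK₂]; field_simp; ring
  have hper : 2 * Real.pi / K₁ ≤ b := by
    have : 2 * Real.pi / K₁ = a / n := by rw [hK₁]; field_simp
    rw [this]
    exact hnb
  obtain ⟨l, hl⟩ := exists_klein_lambda h1 h12 hper
  obtain ⟨s, hs, hsodd, hsper, hsd⟩ := exists_klein_reparam h1 h12 hl
  -- the profile
  let aF : ℝ → ℝ := fun x => Real.cos (s x) / K₁
  let bF : ℝ → ℝ := fun x => Real.sin (s x) / K₂
  let pF : ℝ → ℝ := fun x => -(K₁ * (l / 2)) * Real.sin (s x) ^ 4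
  let qF : ℝ → ℝ := fun x => -(K₂ * (l / 2)) * Real.cos (s x) ^ 4
  have haF : ContDiff ℝ ∞ aF := (Real.contDiff_cos.comp hs).div_const _
  have hbF : ContDiff ℝ ∞ bF := (Real.contDiff_sin.comp hs).div_const _
  have hpF : ContDiff ℝ ∞ pF := contDiff_const.mul ((Real.contDiff_sin.comp hs).pow 4)
  have hqF : ContDiff ℝ ∞ qF := contDiff_const.mul ((Real.contDiff_cos.comp hs).pow 4)
  let comp : ℝ × ℝ → Fin 4 → ℝ := fun z => ![aF z.1 * Real.cos (pF z.1 + K₁ * z.2),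
      aF z.1 * Real.sin (pF z.1 + K₁ * z.2), bF z.1 * Real.cos (qF z.1 + K₂ * z.2),
      bF z.1 * Real.sin (qF z.1 + K₂ * z.2)]
  have hadd : ∀ (f : ℝ → ℝ) (K : ℝ), ContDiff ℝ ∞ f →
      ContDiff ℝ ∞ (fun z : ℝ × ℝ => f z.1 + K * z.2) := by
    intro f K hf
    exact (hf.comp contDiff_fst).add (contDiff_const.mul contDiff_snd)
  have hcomp0 : ContDiff ℝ ∞ (fun z : ℝ × ℝ => aF z.1 * Real.cos (pF z.1 + K₁ * z.2)) :=
    (haF.comp contDiff_fst).mul (Real.contDiff_cos.comp (hadd pF K₁ hpF))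
  have hcomp1 : ContDiff ℝ ∞ (fun z : ℝ × ℝ => aF z.1 * Real.sin (pF z.1 + K₁ * z.2)) :=
    (haF.comp contDiff_fst).mul (Real.contDiff_sin.comp (hadd pF K₁ hpF))
  have hcomp2 : ContDiff ℝ ∞ (fun z : ℝ × ℝ => bF z.1 * Real.cos (qF z.1 + K₂ * z.2)) :=
    (hbF.comp contDiff_fst).mul (Real.contDiff_cos.comp (hadd qF K₂ hqF))
  have hcomp3 : ContDiff ℝ ∞ (fun z : ℝ × ℝ => bF z.1 * Real.sin (qF z.1 + K₂ * z.2)) :=
    (hbF.comp contDiff_fst).mul (Real.contDiff_sin.comp (hadd qF K₂ hqF))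
  have hFs : ContDiff ℝ ∞ (fun z => WithLp.toLp 2 (comp z) : ℝ × ℝ → EuclideanSpace ℝ (Fin 4)) := by
    rw [contDiff_euclidean]
    intro i
    fin_cases i
    · exact hcomp0
    · exact hcomp1
    · exact hcomp2
    · exact hcomp3
  refine ⟨fun z => WithLp.toLp 2 (comp z), hFs, ?_, ?_, ?_⟩
  · -- the glide reflection
    intro x y
    refine congrArg (WithLp.toLp 2) ?_
    have ea : aF (-x) = aF x := by simp only [aF, hsodd, Real.cos_neg]
    have eb : bF (-x) = - bF x := by simp only [bF, hsodd, Real.sin_neg]; ring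
    have ep : pF (-x) = pF x := by
      simp only [pF, hsodd, Real.sin_neg]
      ring
    have eq' : qF (-x) = qF x := by simp only [qF, hsodd, Real.cos_neg]
    have e1 : pF x + K₁ * (y + a) = (pF x + K₁ * y) + n * (2 * Real.pi) := by
      rw [← hK₁a]; ring
    have e2 : qF x + K₂ * (y + a) = (qF x + K₂ * y) + Real.pi + n * (2 * Real.pi) := by
      have : K₂ * (y + a) = K₂ * y + (K₂ * a) := by ring
      rw [this, hK₂a]; ring
    show ![aF (-x) * Real.cos (pF (-x) + K₁ * (y + a)), aF (-x) * Real.sin (pF (-x) + K₁ * (y + a)),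
        bF (-x) * Real.cos (qF (-x) + K₂ * (y + a)), bF (-x) * Real.sin (qF (-x) + K₂ * (y + a))]
      = ![aF x * Real.cos (pF x + K₁ * y), aF x * Real.sin (pF x + K₁ * y),
        bF x * Real.cos (qF x + K₂ * y), bF x * Real.sin (qF x + K₂ * y)]
    rw [ea, eb, ep, eq', e1, e2, Real.cos_add_nat_mul_two_pi, Real.sin_add_nat_mul_two_pi,
      Real.cos_add_nat_mul_two_pi, Real.sin_add_nat_mul_two_pi, Real.cos_add_pi, Real.sin_add_pi,
      neg_mul_neg, neg_mul_neg]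
  · -- the translation
    intro x y
    refine congrArg (WithLp.toLp 2) ?_
    have ea : aF (x + b) = aF x := by simp only [aF, hsper, Real.cos_add_two_pi]
    have eb : bF (x + b) = bF x := by simp only [bF, hsper, Real.sin_add_two_pi]
    have ep : pF (x + b) = pF x := by simp only [pF, hsper, Real.sin_add_two_pi]
    have eq' : qF (x + b) = qF x := by simp only [qF, hsper, Real.cos_add_two_pi]
    show ![aF (x + b) * Real.cos (pF (x + b) + K₁ * y), aF (x + b) * Real.sin (pF (x + b) + K₁ * y),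
        bF (x + b) * Real.cos (qF (x + b) + K₂ * y), bF (x + b) * Real.sin (qF (x + b) + K₂ * y)]
      = ![aF x * Real.cos (pF x + K₁ * y), aF x * Real.sin (pF x + K₁ * y),
        bF x * Real.cos (qF x + K₂ * y), bF x * Real.sin (qF x + K₂ * y)]
    rw [ea, eb, ep, eq']
  · -- the first fundamental form
    rintro ⟨x, y⟩ v w
    have hds : HasDerivAt s (deriv s x) x := (hs.differentiable (by simp) x).hasDerivAt
    obtain ⟨sd, hsd'⟩ : ∃ sd : ℝ, sd = deriv s x := ⟨_, rfl⟩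
    rw [← hsd'] at hds
    have hS : HasDerivAt (fun x => Real.sin (s x)) (Real.cos (s x) * sd) x :=
      (Real.hasDerivAt_sin (s x)).comp x hds
    have hC : HasDerivAt (fun x => Real.cos (s x)) (-Real.sin (s x) * sd) x :=
      (Real.hasDerivAt_cos (s x)).comp x hds
    have hda : HasDerivAt aF (-Real.sin (s x) * sd / K₁) x := hC.div_const K₁
    have hdb : HasDerivAt bF (Real.cos (s x) * sd / K₂) x := hS.div_const K₂
    have hdp : HasDerivAt pF
        (-(K₁ * (l / 2)) * (4 * Real.sin (s x) ^ 3 * (Real.cos (s x) * sd))) x := by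
      have := (hS.pow 4).const_mul (-(K₁ * (l / 2)))
      refine this.congr_deriv ?_
      norm_num
    have hdq : HasDerivAt qF
        (-(K₂ * (l / 2)) * (4 * Real.cos (s x) ^ 3 * (-Real.sin (s x) * sd))) x := by
      have := (hC.pow 4).const_mul (-(K₂ * (l / 2)))
      refine this.congr_deriv ?_
      norm_num
    have t0 := hasFDerivAt_cos_term K₁ x y hda hdp
    have t1 := hasFDerivAt_sin_term K₁ x y hda hdp
    have t2 := hasFDerivAt_cos_term K₂ x y hdb hdq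
    have t3 := hasFDerivAt_sin_term K₂ x y hdb hdq
    have hFd := (hFs.differentiable (by simp) (x, y)).hasFDerivAt
    have hcompo : ∀ (i : Fin 4), HasFDerivAt (fun z => comp z i)
        ((PiLp.proj 2 (fun _ : Fin 4 => ℝ) i).toContinuousLinearMap ∘L
          fderiv ℝ (fun z => WithLp.toLp 2 (comp z) : ℝ × ℝ → EuclideanSpace ℝ (Fin 4)) (x, y)) (x, y) := by
      intro i
      exact ((PiLp.proj 2 (fun _ : Fin 4 => ℝ) i).hasFDerivAt).comp (x, y) hFd
    have hval : ∀ (i : Fin 4) (u : ℝ × ℝ),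
        (fderiv ℝ (fun z => WithLp.toLp 2 (comp z) : ℝ × ℝ → EuclideanSpace ℝ (Fin 4)) (x, y) u).ofLp i
          = fderiv ℝ (fun z => comp z i) (x, y) u := by
      intro i u
      rw [(hcompo i).fderiv]
      rfl
    rw [PiLp.inner_apply, Fin.sum_univ_four]
    simp only [RCLike.inner_apply, conj_trivial]
    rw [hval, hval, hval, hval, hval, hval, hval, hval]
    have f0 : fderiv ℝ (fun z => comp z 0) (x, y) = _ := t0.fderiv
    have f1 : fderiv ℝ (fun z => comp z 1) (x, y) = _ := t1.fderiv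
    have f2 : fderiv ℝ (fun z => comp z 2) (x, y) = _ := t2.fderiv
    have f3 : fderiv ℝ (fun z => comp z 3) (x, y) = _ := t3.fderiv
    rw [f0, f1, f2, f3]
    simp only [add_apply, smul_apply, ContinuousLinearMap.coe_fst', ContinuousLinearMap.coe_snd',
      smul_eq_mul]
    have hinner := inner_alg2 (aF x) (-Real.sin (s x) * sd / K₁)
      (-(K₁ * (l / 2)) * (4 * Real.sin (s x) ^ 3 * (Real.cos (s x) * sd))) (bF x)
      (Real.cos (s x) * sd / K₂)
      (-(K₂ * (l / 2)) * (4 * Real.cos (s x) ^ 3 * (-Real.sin (s x) * sd))) K₁ K₂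
      (Real.cos (pF x + K₁ * y)) (Real.sin (pF x + K₁ * y)) (Real.cos (qF x + K₂ * y))
      (Real.sin (qF x + K₂ * y)) v.1 v.2 w.1 w.2 (Real.sin_sq_add_cos_sq _) (Real.sin_sq_add_cos_sq _)
    have hSC : Real.sin (s x) ^ 2 + Real.cos (s x) ^ 2 = 1 := Real.sin_sq_add_cos_sq _
    have hspeed : sd ^ 2 * kleinQ K₁ K₂ l (s x) = 1 := by rw [hsd']; exact hsd x
    have hE : K₁ ^ 2 * aF x ^ 2 + K₂ ^ 2 * bF x ^ 2 = 1 := by
      simp only [aF, bF]
      field_simp
      linarith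
    have hG : K₁ * aF x ^ 2 * (-(K₁ * (l / 2)) * (4 * Real.sin (s x) ^ 3 * (Real.cos (s x) * sd)))
        + K₂ * bF x ^ 2 * (-(K₂ * (l / 2)) * (4 * Real.cos (s x) ^ 3 * (-Real.sin (s x) * sd))) = 0 := by
      simp only [aF, bF]
      field_simp
      ring
    have hH : (-Real.sin (s x) * sd / K₁) ^ 2
        + aF x ^ 2 * (-(K₁ * (l / 2)) * (4 * Real.sin (s x) ^ 3 * (Real.cos (s x) * sd))) ^ 2
        + (Real.cos (s x) * sd / K₂) ^ 2
        + bF x ^ 2 * (-(K₂ * (l / 2)) * (4 * Real.cos (s x) ^ 3 * (-Real.sin (s x) * sd))) ^ 2 = 1 := by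
      rw [← hspeed]
      simp only [aF, bF, kleinQ]
      have e : (Real.cos (s x) / K₁) ^ 2 *
            (-(K₁ * (l / 2)) * (4 * Real.sin (s x) ^ 3 * (Real.cos (s x) * sd))) ^ 2
          + (Real.sin (s x) / K₂) ^ 2 *
            (-(K₂ * (l / 2)) * (4 * Real.cos (s x) ^ 3 * (-Real.sin (s x) * sd))) ^ 2
          = sd ^ 2 * (4 * l ^ 2 * Real.sin (s x) ^ 4 * Real.cos (s x) ^ 4)
            * (Real.sin (s x) ^ 2 + Real.cos (s x) ^ 2) := by
        field_simp
        ring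
      rw [hSC, mul_one] at e
      have e' : (-Real.sin (s x) * sd / K₁) ^ 2 + (Real.cos (s x) * sd / K₂) ^ 2
          = sd ^ 2 * (Real.sin (s x) ^ 2 / K₁ ^ 2 + Real.cos (s x) ^ 2 / K₂ ^ 2) := by
        field_simp
      linear_combination e + e'
    rw [hH, hG, hE] at hinner
    simp only [one_mul, zero_mul, add_zero] at hinner
    linear_combination hinner

end Vale.Agent.Lib.P205
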